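import Mathlib

/-! Definitions for the Schroedinger convergence problem in dimension `n`, on the Fourier side. -/

namespace Vale.Agent.P076N

open MeasureTheory Complex Filter Topology

/-- Gaussian-regularised free Schroedinger evolution in dimension `n`, in terms of the Fourier
transform g of the initial datum: the integral of
exp(i x·ξ - i t |ξ|² - a |ξ|²) g(ξ) over n-space, divided by the n-th power of 2π. -/
noncomputable def schrodReg (n : ℕ) (g : (Fin n → ℝ) → ℂ) (a t : ℝ) (x : Fin n → ℝ) : ℂ :=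
  ((2 * (Real.pi : ℂ)) ^ n)⁻¹ * ∫ ξ : Fin n → ℝ,
    cexp (I * (∑ j, (x j : ℂ) * (ξ j : ℂ)) -
      ((a : ℂ) + I * t) * (∑ j, (ξ j : ℂ) ^ 2)) * g ξ

/-- `v` is the pointwise value of the evolution at time `t` and position `x`:
the limit of the Gaussian regularisations as `a ↓ 0`. -/
def IsSchrodValue (n : ℕ) (g : (Fin n → ℝ) → ℂ) (t : ℝ) (x : Fin n → ℝ) (v : ℂ) : Prop :=
  Tendsto (fun a : ℝ => schrodReg n g a t x) (𝓝[>] 0) (𝓝 v)

/-- The evolution is defined at `x` for all sufficiently small `t > 0` and has a limit as `t ↓ 0`. -/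
def HasSchrodLimit (n : ℕ) (g : (Fin n → ℝ) → ℂ) (x : Fin n → ℝ) : Prop :=
  ∃ (L : ℂ) (δ : ℝ) (u : ℝ → ℂ), 0 < δ ∧ (∀ t, 0 < t → t < δ → IsSchrodValue n g t x (u t)) ∧
    Tendsto u (𝓝[>] 0) (𝓝 L)

end Vale.Agent.P076N
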