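import Mathlib
import Vale.Agent.P076N.Defs
import Vale.Agent.P076.Packet

/-! Basic properties of the regularised evolution in dimension `n`. -/

namespace Vale.Agent.P076N

open MeasureTheory Complex Filter Topology
open Vale.Agent.P076 (osc norm_osc norm_osc_le_one)

variable {n : ℕ}

/-- the n-dimensional oscillatory factor -/
noncomputable def oscN (a t : ℝ) (x ξ : Fin n → ℝ) : ℂ :=
  cexp (I * (∑ j, (x j : ℂ) * (ξ j : ℂ)) - ((a : ℂ) + I * t) * (∑ j, (ξ j : ℂ) ^ 2))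

theorem schrodReg_eq (g : (Fin n → ℝ) → ℂ) (a t : ℝ) (x : Fin n → ℝ) :
    schrodReg n g a t x = ((2 * (Real.pi : ℂ)) ^ n)⁻¹ * ∫ ξ : Fin n → ℝ, oscN a t x ξ * g ξ := rfl

theorem oscN_eq_prod (a t : ℝ) (x ξ : Fin n → ℝ) :
    oscN a t x ξ = ∏ j, osc ((a : ℂ) + I * t) (x j) (ξ j) := by
  unfold oscN osc
  rw [← Complex.exp_sum]
  congr 1
  rw [Finset.sum_sub_distrib, Finset.mul_sum, Finset.mul_sum]
  congr 1
  apply Finset.sum_congr rfl
  intro j _
  ring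

theorem norm_oscN (a t : ℝ) (x ξ : Fin n → ℝ) :
    ‖oscN a t x ξ‖ = Real.exp (-a * ∑ j, ξ j ^ 2) := by
  rw [oscN_eq_prod, norm_prod]
  simp_rw [norm_osc]
  rw [← Real.exp_sum, Finset.mul_sum]
  congr 1
  apply Finset.sum_congr rfl
  intro j _
  simp

theorem norm_oscN_le_one (a t : ℝ) (ha : 0 ≤ a) (x ξ : Fin n → ℝ) : ‖oscN a t x ξ‖ ≤ 1 := by
  rw [norm_oscN]
  apply Real.exp_le_one_iff.2
  have : 0 ≤ a * ∑ j, ξ j ^ 2 := mul_nonneg ha (Finset.sum_nonneg fun j _ => sq_nonneg _)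
  linarith

theorem continuous_oscN (a t : ℝ) (x : Fin n → ℝ) : Continuous (fun ξ : Fin n → ℝ => oscN a t x ξ) := by
  unfold oscN
  fun_prop

theorem norm_const_inv : ‖((2 * (Real.pi : ℂ)) ^ n)⁻¹‖ = ((2 * Real.pi) ^ n)⁻¹ := by
  rw [norm_inv, norm_pow, norm_mul, Complex.norm_real, Real.norm_of_nonneg Real.pi_pos.le]
  simp

theorem integrable_oscN_mul (g : (Fin n → ℝ) → ℂ) (hg : Integrable g) (a t : ℝ) (ha : 0 ≤ a)
    (x : Fin n → ℝ) : Integrable (fun ξ => oscN a t x ξ * g ξ) := by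
  refine hg.bdd_mul (c := 1) (continuous_oscN a t x).aestronglyMeasurable ?_
  exact Filter.Eventually.of_forall fun ξ => norm_oscN_le_one a t ha x ξ

theorem norm_schrodReg_le (g : (Fin n → ℝ) → ℂ) (hg : Integrable g) (a t : ℝ) (ha : 0 ≤ a)
    (x : Fin n → ℝ) : ‖schrodReg n g a t x‖ ≤ ((2 * Real.pi) ^ n)⁻¹ * ∫ ξ, ‖g ξ‖ := by
  rw [schrodReg_eq, norm_mul, norm_const_inv]
  gcongr
  calc ‖∫ ξ : Fin n → ℝ, oscN a t x ξ * g ξ‖ ≤ ∫ ξ : Fin n → ℝ, ‖oscN a t x ξ * g ξ‖ :=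
        norm_integral_le_integral_norm _
    _ ≤ ∫ ξ, ‖g ξ‖ := by
        apply integral_mono (integrable_oscN_mul g hg a t ha x).norm hg.norm
        intro ξ
        simp only [norm_mul]
        calc ‖oscN a t x ξ‖ * ‖g ξ‖ ≤ 1 * ‖g ξ‖ := by
              gcongr
              exact norm_oscN_le_one a t ha x ξ
          _ = ‖g ξ‖ := one_mul _

theorem schrodReg_tendsto (g : (Fin n → ℝ) → ℂ) (hg : Integrable g) (t : ℝ) (x : Fin n → ℝ) :
    Tendsto (fun a : ℝ => schrodReg n g a t x) (𝓝[>] 0) (𝓝 (schrodReg n g 0 t x)) := by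
  simp_rw [schrodReg_eq]
  apply Tendsto.const_mul
  apply tendsto_integral_filter_of_dominated_convergence (fun ξ => ‖g ξ‖)
  · filter_upwards with a
    exact ((continuous_oscN a t x).aestronglyMeasurable).mul hg.1
  · filter_upwards [self_mem_nhdsWithin] with a ha
    filter_upwards with ξ
    rw [norm_mul]
    calc ‖oscN a t x ξ‖ * ‖g ξ‖ ≤ 1 * ‖g ξ‖ := by
          gcongr
          exact norm_oscN_le_one a t (le_of_lt ha) x ξ
      _ = ‖g ξ‖ := one_mul _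
  · exact hg.norm
  · filter_upwards with ξ
    apply Tendsto.mul_const
    apply Tendsto.mono_left _ nhdsWithin_le_nhds
    have : Continuous (fun a : ℝ => oscN a t x ξ) := by
      unfold oscN
      fun_prop
    exact this.tendsto 0

theorem schrodReg_const_mul (c : ℝ) (G : (Fin n → ℝ) → ℝ) (a t : ℝ) (x : Fin n → ℝ) :
    schrodReg n (fun ξ => ((c * G ξ : ℝ) : ℂ)) a t x =
      (c : ℂ) * schrodReg n (fun ξ => (G ξ : ℂ)) a t x := by
  rw [schrodReg_eq, schrodReg_eq]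
  have : (fun ξ : Fin n → ℝ => oscN a t x ξ * ((c * G ξ : ℝ) : ℂ)) =
      fun ξ => (c : ℂ) * (oscN a t x ξ * (G ξ : ℂ)) := by
    ext ξ; push_cast; ring
  rw [this, integral_const_mul]
  ring

/-- the evolution of a tensor product is the product of the one-dimensional evolutions -/
theorem schrodReg_prod (h : Fin n → ℝ → ℝ) (a t : ℝ) (x : Fin n → ℝ) :
    schrodReg n (fun ξ => ((∏ j, h j (ξ j) : ℝ) : ℂ)) a t x = ((2 * (Real.pi : ℂ)) ^ n)⁻¹ *
      ∏ j, ∫ ξ : ℝ, osc ((a : ℂ) + I * t) (x j) ξ * (h j ξ : ℂ) := by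
  rw [schrodReg_eq]
  congr 1
  rw [← integral_fintype_prod_volume_eq_prod]
  congr 1
  ext ξ
  rw [oscN_eq_prod, Complex.ofReal_prod, ← Finset.prod_mul_distrib]

end Vale.Agent.P076N
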