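import Mathlib
import Vale.Agent.P076N.Basic
import Vale.Agent.P076.TsumInt

/-! Gluing single-scale pieces into one datum whose evolution diverges on a set of positive measure. -/

namespace Vale.Agent.P076N

open MeasureTheory Complex Filter Topology

variable {n : ℕ}

/-- the limsup set has measure at least `c₀` -/
theorem volume_limsup_ge (E : ℕ → Set (Fin n → ℝ)) (hEm : ∀ k, MeasurableSet (E k))
    (hEsub : ∀ k, E k ⊆ Set.Icc (-1) 1)
    (c₀ : ℝ) (hEvol : ∀ k, ENNReal.ofReal c₀ ≤ volume (E k)) :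
    MeasurableSet (⋂ m : ℕ, ⋃ k ≥ m, E k) ∧
      ENNReal.ofReal c₀ ≤ volume (⋂ m : ℕ, ⋃ k ≥ m, E k) := by
  have hm : ∀ m : ℕ, MeasurableSet (⋃ k ≥ m, E k) := fun m =>
    MeasurableSet.iUnion fun k => MeasurableSet.iUnion fun _ => hEm k
  refine ⟨MeasurableSet.iInter hm, ?_⟩
  have hanti : Antitone (fun m : ℕ => ⋃ k ≥ m, E k) := by
    intro a b hab
    apply Set.iUnion₂_subset
    intro k hk
    exact Set.subset_iUnion₂_of_subset k (le_trans hab hk) (Set.Subset.refl _)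
  have hfin : ∃ i : ℕ, volume (⋃ k ≥ i, E k) ≠ ⊤ := by
    refine ⟨0, ?_⟩
    have hsub : (⋃ k ≥ (0 : ℕ), E k) ⊆ (Set.Icc (-1) 1 : Set (Fin n → ℝ)) :=
      Set.iUnion₂_subset fun k _ => hEsub k
    have hcpt : IsCompact (Set.Icc (-1) 1 : Set (Fin n → ℝ)) :=
      isCompact_Icc
    exact ne_top_of_le_ne_top hcpt.measure_lt_top.ne (measure_mono hsub)
  rw [hanti.measure_iInter (fun i => (hm i).nullMeasurableSet) hfin]
  apply le_iInf
  intro m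
  exact (hEvol m).trans (measure_mono (Set.subset_iUnion₂_of_subset m le_rfl (Set.Subset.refl _)))

theorem integrable_gauss2 (b : ℝ) (hb : 0 < b) :
    Integrable (fun ξ : Fin n → ℝ => Real.exp (-b * (∑ j, ξ j ^ 2))) := by
  have h1 : Integrable (fun x : ℝ => Real.exp (-b * x ^ 2)) := integrable_exp_neg_mul_sq hb
  have h2 : Integrable (fun ξ : Fin n → ℝ => ∏ j, Real.exp (-b * ξ j ^ 2)) :=
    Integrable.fintype_prod (f := fun _ x => Real.exp (-b * x ^ 2)) (fun _ => h1)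
  refine h2.congr (Filter.Eventually.of_forall fun ξ => ?_)
  simp only
  rw [← Real.exp_sum, Finset.mul_sum]

/-- Step 1: for `a > 0` the regularised evolution of the sum is the sum of the evolutions. -/
theorem hasSum_schrodReg (G : ℕ → (Fin n → ℝ) → ℝ) (hG0 : ∀ k ξ, 0 ≤ G k ξ)
    (hGint : ∀ k, Integrable (G k))
    (hG2int : ∀ k, Integrable (fun ξ => G k ξ ^ 2))
    (hG2sum : Summable (fun k => (2 : ℝ) ^ (k + 1) * ∫ ξ, G k ξ ^ 2))
    (a t : ℝ) (ha : 0 < a) (x : Fin n → ℝ) :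
    HasSum (fun k => schrodReg n (fun ξ => (G k ξ : ℂ)) a t x)
      (schrodReg n (fun ξ => ((∑' k, G k ξ : ℝ) : ℂ)) a t x) := by
  set F : ℕ → (Fin n → ℝ) → ℂ := fun k ξ => oscN a t x ξ * (G k ξ : ℂ) with hF
  have hFint : ∀ k, Integrable (F k) := fun k =>
    integrable_oscN_mul _ (hGint k).ofReal a t ha.le x
  have hgauss := integrable_gauss2 (n := n) (2 * a) (by positivity)
  set Γ : ℝ := ∫ ξ : Fin n → ℝ, Real.exp (-(2 * a) * (∑ j, ξ j ^ 2)) with hΓ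
  have hbound : ∀ k, ∫ ξ, ‖F k ξ‖ ≤
      (1 / 2) * ((1 / 2 : ℝ) ^ (k + 1) * Γ) + (1 / 2) * ((2 : ℝ) ^ (k + 1) * ∫ ξ, G k ξ ^ 2) := by
    intro k
    have hI : Integrable (fun ξ : Fin n → ℝ =>
        (1 / 2) * ((1 / 2 : ℝ) ^ (k + 1) * Real.exp (-(2 * a) * (∑ j, ξ j ^ 2))) +
          (1 / 2) * ((2 : ℝ) ^ (k + 1) * G k ξ ^ 2)) :=
      ((hgauss.const_mul _).const_mul _).add (((hG2int k).const_mul _).const_mul _)
    calc ∫ ξ, ‖F k ξ‖ ≤ ∫ ξ : Fin n → ℝ,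
          ((1 / 2) * ((1 / 2 : ℝ) ^ (k + 1) * Real.exp (-(2 * a) * (∑ j, ξ j ^ 2))) +
            (1 / 2) * ((2 : ℝ) ^ (k + 1) * G k ξ ^ 2)) := by
          apply integral_mono (hFint k).norm hI
          intro ξ
          simp only [hF, norm_mul, norm_oscN, Complex.norm_real, Real.norm_of_nonneg (hG0 k ξ)]
          set e := Real.exp (-a * (∑ j, ξ j ^ 2)) with he
          have he2 : Real.exp (-(2 * a) * (∑ j, ξ j ^ 2)) = e ^ 2 := by
            rw [he, ← Real.exp_nat_mul]; congr 1; push_cast; ring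
          rw [he2]
          set p : ℝ := (2 : ℝ) ^ (k + 1) with hp
          have hp0 : 0 < p := by positivity
          have hpinv : (1 / 2 : ℝ) ^ (k + 1) = p⁻¹ := by
            rw [hp, one_div, inv_pow]
          rw [hpinv]
          have key : 0 ≤ p⁻¹ * (e - p * G k ξ) ^ 2 := by positivity
          have : p⁻¹ * (e - p * G k ξ) ^ 2 = p⁻¹ * e ^ 2 - 2 * (e * G k ξ) + p * G k ξ ^ 2 := by
            field_simp
            ring
          nlinarith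
      _ = _ := by
          rw [integral_add ((hgauss.const_mul _).const_mul _) (((hG2int k).const_mul _).const_mul _),
            integral_const_mul, integral_const_mul, integral_const_mul, integral_const_mul]
  have hsum : Summable (fun k => ∫ ξ, ‖F k ξ‖) := by
    refine Summable.of_nonneg_of_le (fun k => integral_nonneg fun ξ => norm_nonneg _) hbound ?_
    apply Summable.add
    · apply Summable.mul_left
      apply Summable.mul_right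
      exact (summable_nat_add_iff 1).2 (summable_geometric_of_lt_one (by norm_num) (by norm_num))
    · exact hG2sum.mul_left _
  have hs := hasSum_integral_of_summable_integral_norm hFint hsum
  have hs2 := hs.mul_left (((2 * (Real.pi : ℂ)) ^ n)⁻¹)
  have hEq : (∫ ξ, ∑' k, F k ξ) = ∫ ξ : Fin n → ℝ, oscN a t x ξ * ((∑' k, G k ξ : ℝ) : ℂ) := by
    congr 1
    ext ξ
    simp only [hF]
    rw [tsum_mul_left, Complex.ofReal_tsum]
  rw [hEq] at hs2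
  exact hs2

/-- lower bound for the regularised evolution of the glued datum, at fixed `a > 0` -/
theorem glue_lower (G : ℕ → (Fin n → ℝ) → ℝ) (hG0 : ∀ k ξ, 0 ≤ G k ξ)
    (hGint : ∀ k, Integrable (G k))
    (hG2int : ∀ k, Integrable (fun ξ => G k ξ ^ 2))
    (hG2sum : Summable (fun k => (2 : ℝ) ^ (k + 1) * ∫ ξ, G k ξ ^ 2))
    (k : ℕ) (a t : ℝ) (ha : 0 < a) (x : Fin n → ℝ)
    (htail : ∀ j, k < j → ‖schrodReg n (fun ξ => (G j ξ : ℂ)) a t x‖ ≤ (1 / 2 : ℝ) ^ j) :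
    ‖schrodReg n (fun ξ => (G k ξ : ℂ)) a t x‖ -
        (∑ j ∈ Finset.range k, ((2 * Real.pi) ^ n)⁻¹ * ∫ ξ, G j ξ) - 1 ≤
      ‖schrodReg n (fun ξ => ((∑' k, G k ξ : ℝ) : ℂ)) a t x‖ := by
  have hs := hasSum_schrodReg G hG0 hGint hG2int hG2sum a t ha x
  set s : ℕ → ℂ := fun j => schrodReg n (fun ξ => (G j ξ : ℂ)) a t x with hsdef
  have hsplit := hs.summable.sum_add_tsum_nat_add (k + 1)
  rw [hs.tsum_eq, Finset.sum_range_succ] at hsplit
  have hA : ‖∑ j ∈ Finset.range k, s j‖ ≤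
      ∑ j ∈ Finset.range k, ((2 * Real.pi) ^ n)⁻¹ * ∫ ξ, G j ξ := by
    refine (norm_sum_le _ _).trans (Finset.sum_le_sum fun j _ => ?_)
    have h1 := norm_schrodReg_le (fun ξ => (G j ξ : ℂ)) (hGint j).ofReal a t ha.le x
    have h2 : (∫ ξ, ‖(G j ξ : ℂ)‖) = ∫ ξ, G j ξ := by
      congr 1
      ext ξ
      rw [Complex.norm_real, Real.norm_of_nonneg (hG0 j ξ)]
    rwa [h2] at h1
  have hB : ‖∑' j, s (j + (k + 1))‖ ≤ 1 := by
    have hgeo : HasSum (fun j : ℕ => (1 / 2 : ℝ) ^ (k + 1) * (1 / 2 : ℝ) ^ j)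
        ((1 / 2 : ℝ) ^ (k + 1) * 2) := hasSum_geometric_two.mul_left _
    have hle : ‖∑' j, s (j + (k + 1))‖ ≤ (1 / 2 : ℝ) ^ (k + 1) * 2 := by
      apply tsum_of_norm_bounded hgeo
      intro j
      have := htail (j + (k + 1)) (by omega)
      calc ‖s (j + (k + 1))‖ ≤ (1 / 2 : ℝ) ^ (j + (k + 1)) := this
        _ = (1 / 2 : ℝ) ^ (k + 1) * (1 / 2 : ℝ) ^ j := by rw [pow_add]; ring
    have h2 : (1 / 2 : ℝ) ^ (k + 1) * 2 ≤ 1 := by
      have : (1 / 2 : ℝ) ^ (k + 1) * 2 = (1 / 2 : ℝ) ^ k := by rw [pow_succ]; ring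
      rw [this]
      exact pow_le_one₀ (by norm_num) (by norm_num)
    exact hle.trans h2
  have hk : s k = schrodReg n (fun ξ => ((∑' k, G k ξ : ℝ) : ℂ)) a t x -
      (∑ j ∈ Finset.range k, s j) - ∑' j, s (j + (k + 1)) := by
    rw [← hsplit]; ring
  have hnorm : ‖s k‖ ≤ ‖schrodReg n (fun ξ => ((∑' k, G k ξ : ℝ) : ℂ)) a t x‖ +
      ‖∑ j ∈ Finset.range k, s j‖ + ‖∑' j, s (j + (k + 1))‖ := by
    rw [hk]
    exact (norm_sub_le _ _).trans (add_le_add_left (norm_sub_le _ _) _)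
  linarith

theorem glue_divergence (G : ℕ → (Fin n → ℝ) → ℝ) (hG0 : ∀ k ξ, 0 ≤ G k ξ)
    (hGint : ∀ k, Integrable (G k))
    (hG2int : ∀ k, Integrable (fun ξ => G k ξ ^ 2))
    (hG2sum : Summable (fun k => (2 : ℝ) ^ (k + 1) * ∫ ξ, G k ξ ^ 2))
    (E : ℕ → Set (Fin n → ℝ)) (hEm : ∀ k, MeasurableSet (E k))
    (hEsub : ∀ k, E k ⊆ Set.Icc (-1) 1)
    (c₀ : ℝ) (hc₀ : 0 < c₀) (hEvol : ∀ k, ENNReal.ofReal c₀ ≤ volume (E k))
    (tmin : ℕ → ℝ) (htmin : ∀ k, 0 < tmin k)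
    (hpeak : ∀ k, ∀ x ∈ E k, ∃ t, tmin k ≤ t ∧ t ≤ 1 / ((k : ℝ) + 1) ∧
      (k : ℝ) + 1 + ∑ j ∈ Finset.range k, ((2 * Real.pi) ^ n)⁻¹ * ∫ ξ, G j ξ ≤
        ‖schrodReg n (fun ξ => (G k ξ : ℂ)) 0 t x‖)
    (htail : ∀ k j, k < j → ∀ x ∈ (Set.Icc (-1) 1 : Set (Fin n → ℝ)), ∀ t, tmin k ≤ t →
      ∀ a, 0 < a → ‖schrodReg n (fun ξ => (G j ξ : ℂ)) a t x‖ ≤ (1 / 2 : ℝ) ^ j) :
    ∃ S : Set (Fin n → ℝ), MeasurableSet S ∧ 0 < volume S ∧
      ∀ x ∈ S, ¬ HasSchrodLimit n (fun ξ => ((∑' k, G k ξ : ℝ) : ℂ)) x := by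
  obtain ⟨hSm, hSvol⟩ := volume_limsup_ge E hEm hEsub c₀ hEvol
  refine ⟨⋂ m : ℕ, ⋃ k ≥ m, E k, hSm,
    lt_of_lt_of_le (ENNReal.ofReal_pos.2 hc₀) hSvol, ?_⟩
  rintro x hx ⟨L, δ, u, hδ, hval, hlim⟩
  -- boundedness of u near 0
  have hev : ∀ᶠ t in 𝓝[>] (0 : ℝ), ‖u t‖ < ‖L‖ + 1 :=
    hlim.norm.eventually (gt_mem_nhds (by linarith))
  obtain ⟨δ', hδ', hsub⟩ := mem_nhdsGT_iff_exists_Ioo_subset.1 hev
  have hδ'0 : (0 : ℝ) < δ' := hδ'
  obtain ⟨n1, hn1⟩ := exists_nat_one_div_lt (lt_min hδ hδ'0)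
  obtain ⟨n2, hn2⟩ := exists_nat_gt (‖L‖ + 1)
  set m := max n1 n2 with hn
  have hxn := Set.mem_iInter.1 hx m
  simp only [Set.mem_iUnion, exists_prop] at hxn
  obtain ⟨k, hkn, hxk⟩ := hxn
  obtain ⟨t, ht1, ht2, ht3⟩ := hpeak k x hxk
  have ht0 : 0 < t := lt_of_lt_of_le (htmin k) ht1
  have hn1k : (n1 : ℝ) ≤ k := by exact_mod_cast le_trans (le_max_left _ _) hkn
  have hn2k : (n2 : ℝ) ≤ k := by exact_mod_cast le_trans (le_max_right _ _) hkn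
  have htlt : t < min δ δ' := by
    refine lt_of_le_of_lt (ht2.trans ?_) hn1
    apply one_div_le_one_div_of_le (by positivity)
    linarith
  have htδ : t < δ := lt_of_lt_of_le htlt (min_le_left _ _)
  have htδ' : t < δ' := lt_of_lt_of_le htlt (min_le_right _ _)
  have hut : ‖u t‖ < ‖L‖ + 1 := hsub ⟨ht0, htδ'⟩
  have hxsq := hEsub k hxk
  -- pass to the limit a ↓ 0
  have hlimL : Tendsto (fun a : ℝ => ‖schrodReg n (fun ξ => ((∑' k, G k ξ : ℝ) : ℂ)) a t x‖)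
      (𝓝[>] 0) (𝓝 ‖u t‖) := (hval t ht0 htδ).norm
  have hlimR : Tendsto (fun a : ℝ => ‖schrodReg n (fun ξ => (G k ξ : ℂ)) a t x‖ -
        (∑ j ∈ Finset.range k, ((2 * Real.pi) ^ n)⁻¹ * ∫ ξ, G j ξ) - 1) (𝓝[>] 0)
      (𝓝 (‖schrodReg n (fun ξ => (G k ξ : ℂ)) 0 t x‖ -
        (∑ j ∈ Finset.range k, ((2 * Real.pi) ^ n)⁻¹ * ∫ ξ, G j ξ) - 1)) :=
    (((schrodReg_tendsto _ (hGint k).ofReal t x).norm).sub_const _).sub_const _
  have hle : ‖schrodReg n (fun ξ => (G k ξ : ℂ)) 0 t x‖ -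
        (∑ j ∈ Finset.range k, ((2 * Real.pi) ^ n)⁻¹ * ∫ ξ, G j ξ) - 1 ≤ ‖u t‖ := by
    apply le_of_tendsto_of_tendsto hlimR hlimL
    filter_upwards [self_mem_nhdsWithin] with a ha
    exact glue_lower G hG0 hGint hG2int hG2sum k a t ha x
      (fun j hj => htail k j hj x hxsq t ht1 a ha)
  linarith

end Vale.Agent.P076N
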