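import Mathlib

/-! Abstract recursive choice of scales and heights. -/

namespace Vale.Agent.P076N

open Filter Topology

/-- one step of the selection -/
theorem exists_scale_abs (pk tmax l2 wt : ℕ → ℝ) (tl : ℝ → ℕ → ℝ)
    (htmax : Tendsto tmax atTop (𝓝 0))
    (hl2 : Tendsto (fun K => l2 K / pk K ^ 2) atTop (𝓝 0))
    (hwt : Tendsto (fun K => wt K / pk K ^ 2) atTop (𝓝 0))
    (htl : ∀ t₀, 0 < t₀ → Tendsto (fun K => tl t₀ K / pk K) atTop (𝓝 0))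
    (k : ℕ) (M t₀ : ℝ) :
    ∃ K : ℕ, tmax K ≤ 1 / ((k : ℝ) + 1) ∧
      (2 : ℝ) ^ (k + 1) * ((M / pk K) ^ 2 * l2 K) ≤ (1 / 2) ^ k ∧
      (2 : ℝ) ^ (k + 1) * ((M / pk K) ^ 2 * wt K) ≤ (1 / 2) ^ k ∧
      (0 < t₀ → (M / pk K) * tl t₀ K ≤ (1 / 2) ^ k) := by
  have hε : (0 : ℝ) < (1 / 2) ^ k := by positivity
  have e1 : ∀ᶠ K in atTop, tmax K ≤ 1 / ((k : ℝ) + 1) :=
    htmax.eventually_le_const (by positivity)
  have e2 : ∀ᶠ K in atTop, (2 : ℝ) ^ (k + 1) * M ^ 2 * (l2 K / pk K ^ 2) ≤ (1 / 2) ^ k := by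
    have h := hl2.const_mul ((2 : ℝ) ^ (k + 1) * M ^ 2)
    rw [mul_zero] at h
    exact h.eventually_le_const hε
  have e3 : ∀ᶠ K in atTop, (2 : ℝ) ^ (k + 1) * M ^ 2 * (wt K / pk K ^ 2) ≤ (1 / 2) ^ k := by
    have h := hwt.const_mul ((2 : ℝ) ^ (k + 1) * M ^ 2)
    rw [mul_zero] at h
    exact h.eventually_le_const hε
  have e4 : ∀ᶠ K in atTop, (0 < t₀ → M * (tl t₀ K / pk K) ≤ (1 / 2) ^ k) := by
    by_cases ht : 0 < t₀
    · have h := (htl t₀ ht).const_mul M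
      rw [mul_zero] at h
      filter_upwards [h.eventually_le_const hε] with K hK _
      exact hK
    · exact Filter.Eventually.of_forall fun K h => absurd h ht
  obtain ⟨K, h1, h2, h3, h4⟩ := (e1.and (e2.and (e3.and e4))).exists
  refine ⟨K, h1, ?_, ?_, ?_⟩
  · calc (2 : ℝ) ^ (k + 1) * ((M / pk K) ^ 2 * l2 K)
        = (2 : ℝ) ^ (k + 1) * M ^ 2 * (l2 K / pk K ^ 2) := by rw [div_pow]; ring
      _ ≤ _ := h2
  · calc (2 : ℝ) ^ (k + 1) * ((M / pk K) ^ 2 * wt K)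
        = (2 : ℝ) ^ (k + 1) * M ^ 2 * (wt K / pk K ^ 2) := by rw [div_pow]; ring
      _ ≤ _ := h3
  · intro ht
    calc (M / pk K) * tl t₀ K = M * (tl t₀ K / pk K) := by ring
      _ ≤ _ := h4 ht

theorem exists_seq_abs (pk tmax tmin l2 wt : ℕ → ℝ) (tl : ℝ → ℕ → ℝ) (contrib : ℝ → ℕ → ℝ)
    (htmin : ∀ K, 0 < tmin K)
    (htmax : Tendsto tmax atTop (𝓝 0))
    (hl2 : Tendsto (fun K => l2 K / pk K ^ 2) atTop (𝓝 0))
    (hwt : Tendsto (fun K => wt K / pk K ^ 2) atTop (𝓝 0))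
    (htl : ∀ t₀, 0 < t₀ → Tendsto (fun K => tl t₀ K / pk K) atTop (𝓝 0)) :
    ∃ (Kk : ℕ → ℕ) (Mk Tk : ℕ → ℝ),
      (∀ k : ℕ, tmax (Kk k) ≤ 1 / ((k : ℝ) + 1)) ∧
      (∀ k : ℕ, (2 : ℝ) ^ (k + 1) * ((Mk k / pk (Kk k)) ^ 2 * l2 (Kk k)) ≤ (1 / 2) ^ k) ∧
      (∀ k : ℕ, (2 : ℝ) ^ (k + 1) * ((Mk k / pk (Kk k)) ^ 2 * wt (Kk k)) ≤ (1 / 2) ^ k) ∧
      (∀ k : ℕ, (Mk (k + 1) / pk (Kk (k + 1))) * tl (Tk k) (Kk (k + 1)) ≤ (1 / 2) ^ (k + 1)) ∧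
      (∀ k : ℕ, 0 < Tk k) ∧
      (∀ k j : ℕ, k ≤ j → Tk j ≤ tmin (Kk k)) ∧
      (∀ k : ℕ, Mk k = (k : ℝ) + 1 + ∑ j ∈ Finset.range k, contrib (Mk j) (Kk j)) := by
  choose f hf using (fun (k : ℕ) (M t₀ : ℝ) =>
    exists_scale_abs pk tmax l2 wt tl htmax hl2 hwt htl k M t₀)
  let st : ℕ → ℕ × ℝ × ℝ × ℝ := fun m => Nat.rec
    ((f 0 1 1, 1, contrib 1 (f 0 1 1), tmin (f 0 1 1)) : ℕ × ℝ × ℝ × ℝ)
    (fun k s => (f (k + 1) ((k : ℝ) + 1 + 1 + s.2.2.1) s.2.2.2, (k : ℝ) + 1 + 1 + s.2.2.1,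
      s.2.2.1 + contrib ((k : ℝ) + 1 + 1 + s.2.2.1) (f (k + 1) ((k : ℝ) + 1 + 1 + s.2.2.1) s.2.2.2),
      min s.2.2.2 (tmin (f (k + 1) ((k : ℝ) + 1 + 1 + s.2.2.1) s.2.2.2)))) m
  have hK0 : (st 0).1 = f 0 (st 0).2.1 1 := rfl
  have hM0 : (st 0).2.1 = 1 := rfl
  have hS0 : (st 0).2.2.1 = contrib (st 0).2.1 (st 0).1 := rfl
  have hT0 : (st 0).2.2.2 = tmin (st 0).1 := rfl
  have hKs : ∀ k, (st (k + 1)).1 = f (k + 1) (st (k + 1)).2.1 (st k).2.2.2 := fun k => rfl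
  have hMs : ∀ k, (st (k + 1)).2.1 = (k : ℝ) + 1 + 1 + (st k).2.2.1 := fun k => rfl
  have hSs : ∀ k, (st (k + 1)).2.2.1 = (st k).2.2.1 + contrib (st (k + 1)).2.1 (st (k + 1)).1 :=
    fun k => rfl
  have hTs : ∀ k, (st (k + 1)).2.2.2 = min (st k).2.2.2 (tmin (st (k + 1)).1) := fun k => rfl
  have hspec : ∀ k, ∃ T, (st k).1 = f k (st k).2.1 T := by
    intro k
    cases k with
    | zero => exact ⟨1, hK0⟩
    | succ k => exact ⟨_, hKs k⟩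
  have hS : ∀ k, (st k).2.2.1 = ∑ j ∈ Finset.range (k + 1), contrib (st j).2.1 (st j).1 := by
    intro k
    induction k with
    | zero => simp [hS0]
    | succ k ih => rw [hSs, ih, Finset.sum_range_succ _ (k + 1)]
  have hTpos : ∀ k, 0 < (st k).2.2.2 := by
    intro k
    induction k with
    | zero => rw [hT0]; exact htmin _
    | succ k ih => rw [hTs]; exact lt_min ih (htmin _)
  have hTself : ∀ k, (st k).2.2.2 ≤ tmin (st k).1 := by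
    intro k
    cases k with
    | zero => exact hT0.le
    | succ k => rw [hTs]; exact min_le_right _ _
  have hTanti : ∀ k j, k ≤ j → (st j).2.2.2 ≤ (st k).2.2.2 := by
    intro k j hkj
    induction j, hkj using Nat.le_induction with
    | base => exact le_rfl
    | succ j _ ih => exact le_trans (by rw [hTs]; exact min_le_left _ _) ih
  refine ⟨fun k => (st k).1, fun k => (st k).2.1, fun k => (st k).2.2.2, ?_, ?_, ?_, ?_, hTpos,
    ?_, ?_⟩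
  · intro k
    obtain ⟨T, h⟩ := hspec k
    simp only
    rw [h]
    exact (hf k _ T).1
  · intro k
    obtain ⟨T, h⟩ := hspec k
    simp only
    rw [h]
    exact (hf k _ T).2.1
  · intro k
    obtain ⟨T, h⟩ := hspec k
    simp only
    rw [h]
    exact (hf k _ T).2.2.1
  · intro k
    simp only
    rw [hKs k]
    exact (hf (k + 1) _ _).2.2.2 (hTpos k)
  · intro k j hkj
    exact (hTanti k j hkj).trans (hTself k)
  · intro k
    simp only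
    cases k with
    | zero => simp [hM0]
    | succ k =>
      rw [hMs, hS]
      push_cast
      ring

end Vale.Agent.P076N
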