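import Mathlib
import Vale.Agent.P076N.Select
import Vale.Agent.P076N.Glue
import Vale.Agent.P076N.WeightedSq

/-! Abstract assembly: single-scale pieces with loss-free peaks give a divergent datum. -/

namespace Vale.Agent.P076N

open MeasureTheory Filter Topology Real Complex

variable {n : ℕ}

theorem assemble (W : (Fin n → ℝ) → ℝ) (hW0 : ∀ ξ, 0 ≤ W ξ) (hWm : AEStronglyMeasurable W volume)
    (pc : ℕ → (Fin n → ℝ) → ℝ) (hpc0 : ∀ K ξ, 0 ≤ pc K ξ) (hpcint : ∀ K, Integrable (pc K))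
    (hpc2 : ∀ K, Integrable (fun ξ => pc K ξ ^ 2))
    (hpcW : ∀ K, Integrable (fun ξ => W ξ * pc K ξ ^ 2))
    (E : ℕ → Set (Fin n → ℝ)) (hEm : ∀ K, MeasurableSet (E K)) (hEsub : ∀ K, E K ⊆ Set.Icc (-1) 1)
    (c₀ : ℝ) (hc₀ : 0 < c₀) (hEvol : ∀ K, ENNReal.ofReal c₀ ≤ volume (E K))
    (pk tmin tmax : ℕ → ℝ) (hpk : ∀ K, 0 < pk K) (htmin : ∀ K, 0 < tmin K)
    (htmax : Tendsto tmax atTop (𝓝 0))
    (hpeak : ∀ K, ∀ x ∈ E K, ∃ t, tmin K ≤ t ∧ t ≤ tmax K ∧
      pk K ≤ ‖schrodReg n (fun ξ => (pc K ξ : ℂ)) 0 t x‖)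
    (hl2 : Tendsto (fun K => (∫ ξ, pc K ξ ^ 2) / pk K ^ 2) atTop (𝓝 0))
    (hwt : Tendsto (fun K => (∫ ξ, W ξ * pc K ξ ^ 2) / pk K ^ 2) atTop (𝓝 0))
    (tl : ℝ → ℕ → ℝ)
    (htl : ∀ t₀, 0 < t₀ → Tendsto (fun K => tl t₀ K / pk K) atTop (𝓝 0))
    (htail : ∀ t₀, 0 < t₀ → ∀ K, ∀ x ∈ (Set.Icc (-1) 1 : Set (Fin n → ℝ)), ∀ t, t₀ ≤ t →
      ∀ a, 0 < a → ‖schrodReg n (fun ξ => (pc K ξ : ℂ)) a t x‖ ≤ tl t₀ K) :
    ∃ g : (Fin n → ℝ) → ℂ, MemLp g 2 volume ∧ Integrable (fun ξ => W ξ * ‖g ξ‖ ^ 2) ∧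
      ∃ S : Set (Fin n → ℝ), MeasurableSet S ∧ 0 < volume S ∧ ∀ x ∈ S, ¬ HasSchrodLimit n g x := by
  set contrib : ℝ → ℕ → ℝ := fun M K => ((2 * π) ^ n)⁻¹ * ∫ ξ, (M / pk K) * pc K ξ with hcontrib
  obtain ⟨Kk, Mk, Tk, h1, hb, hc, hd, hTpos, hTle, hM⟩ :=
    exists_seq_abs pk tmax tmin (fun K => ∫ ξ, pc K ξ ^ 2) (fun K => ∫ ξ, W ξ * pc K ξ ^ 2) tl
      contrib htmin htmax hl2 hwt htl
  have hcontrib0 : ∀ M K, 0 ≤ M → 0 ≤ contrib M K := by
    intro M K hM0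
    rw [hcontrib]
    apply mul_nonneg (by positivity)
    apply integral_nonneg
    intro ξ
    exact mul_nonneg (div_nonneg hM0 (hpk K).le) (hpc0 K ξ)
  have hMpos : ∀ k, 0 < Mk k := by
    intro k
    induction k using Nat.strong_induction_on with
    | _ k ih =>
      rw [hM k]
      have : 0 ≤ ∑ j ∈ Finset.range k, contrib (Mk j) (Kk j) :=
        Finset.sum_nonneg fun j hj => hcontrib0 _ _ (ih j (Finset.mem_range.1 hj)).le
      positivity
  set cf : ℕ → ℝ := fun k => Mk k / pk (Kk k) with hcf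
  have hcf0 : ∀ k, 0 ≤ cf k := fun k => div_nonneg (hMpos k).le (hpk _).le
  set G : ℕ → (Fin n → ℝ) → ℝ := fun k ξ => cf k * pc (Kk k) ξ with hG
  have hG0 : ∀ k ξ, 0 ≤ G k ξ := fun k ξ => mul_nonneg (hcf0 k) (hpc0 _ _)
  have hGint : ∀ k, Integrable (G k) := fun k => (hpcint _).const_mul _
  have hGsq : ∀ k, (fun ξ => G k ξ ^ 2) = fun ξ => cf k ^ 2 * pc (Kk k) ξ ^ 2 := by
    intro k; ext ξ; rw [hG]; simp only; ring
  have hG2int : ∀ k, Integrable (fun ξ => G k ξ ^ 2) := by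
    intro k
    rw [hGsq k]
    exact (hpc2 _).const_mul _
  have hgeom : Summable (fun k : ℕ => (1 / 2 : ℝ) ^ k) :=
    summable_geometric_of_lt_one (by norm_num) (by norm_num)
  have hG2sum : Summable (fun k => (2 : ℝ) ^ (k + 1) * ∫ ξ, G k ξ ^ 2) := by
    refine Summable.of_nonneg_of_le (fun k => ?_) (fun k => ?_) hgeom
    · exact mul_nonneg (by positivity) (integral_nonneg fun ξ => by positivity)
    · refine le_trans (le_of_eq ?_) (hb k)
      rw [hGsq k, integral_const_mul]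
  have hGm : ∀ k, AEStronglyMeasurable (G k) volume := fun k => (hGint k).1
  refine ⟨fun ξ => ((∑' k, G k ξ : ℝ) : ℂ), ?_, ?_, ?_⟩
  · rw [memLp_two_iff_integrable_sq_norm (aestronglyMeasurable_tsum G hG0 hGm)]
    have h := integrable_weight_sq_tsum G hG0 hGm (fun _ => 1) (fun _ => zero_le_one)
      aestronglyMeasurable_const (by simpa using hG2int) (by simpa using hG2sum)
    simpa using h
  · have hwG : ∀ k, (fun ξ => W ξ * G k ξ ^ 2) = fun ξ => cf k ^ 2 * (W ξ * pc (Kk k) ξ ^ 2) := by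
      intro k; ext ξ; rw [hG]; simp only; ring
    have hint : ∀ k, Integrable (fun ξ => W ξ * G k ξ ^ 2) := by
      intro k
      rw [hwG k]
      exact (hpcW _).const_mul _
    have hsum : Summable (fun k => (2 : ℝ) ^ (k + 1) * ∫ ξ, W ξ * G k ξ ^ 2) := by
      refine Summable.of_nonneg_of_le (fun k => ?_) (fun k => ?_) hgeom
      · exact mul_nonneg (by positivity) (integral_nonneg fun ξ => mul_nonneg (hW0 ξ) (by positivity))
      · refine le_trans (le_of_eq ?_) (hc k)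
        rw [hwG k, integral_const_mul]
    exact integrable_weight_sq_tsum G hG0 hGm W hW0 hWm hint hsum
  · apply glue_divergence G hG0 hGint hG2int hG2sum (fun k => E (Kk k))
      (fun k => hEm _) (fun k => hEsub _) c₀ hc₀ (fun k => hEvol _) (fun k => tmin (Kk k))
      (fun k => htmin _)
    · intro k x hx
      obtain ⟨t, ht1, ht2, ht3⟩ := hpeak (Kk k) x hx
      refine ⟨t, ht1, ht2.trans (h1 k), ?_⟩
      have e1 : (k : ℝ) + 1 + ∑ j ∈ Finset.range k, ((2 * π) ^ n)⁻¹ * ∫ ξ, G j ξ = Mk k := by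
        rw [hM k]
      rw [e1, hG]
      simp only
      rw [schrodReg_const_mul, norm_mul, Complex.norm_real, Real.norm_of_nonneg (hcf0 k)]
      calc Mk k = cf k * pk (Kk k) := by
            rw [hcf]
            simp only
            rw [div_mul_cancel₀ _ (hpk _).ne']
        _ ≤ _ := mul_le_mul_of_nonneg_left ht3 (hcf0 k)
    · intro k j hkj x hx t ht a ha
      obtain ⟨j', rfl⟩ : ∃ j', j = j' + 1 := ⟨j - 1, by omega⟩
      have hkj' : k ≤ j' := by omega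
      have ht₀t : Tk j' ≤ t := (hTle k j' hkj').trans ht
      have h := htail (Tk j') (hTpos j') (Kk (j' + 1)) x hx t ht₀t a ha
      rw [hG]
      simp only
      rw [schrodReg_const_mul, norm_mul, Complex.norm_real, Real.norm_of_nonneg (hcf0 _)]
      exact (mul_le_mul_of_nonneg_left h (hcf0 _)).trans (hd j')

end Vale.Agent.P076N
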