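import Mathlib

/-! The boxes on which the single-scale piece peaks: disjointness, volume, location. -/

namespace Vale.Agent.P076N

open MeasureTheory Real

/-- index set of the boxes at scale `N = 4 K` in dimension `d + 1`:
a time index `a` and a lattice index `b` -/
def boxIdx (d K : ℕ) : Finset (ℕ × (Fin d → ℕ)) :=
  (Finset.Icc 1 (K ^ 2 * (4 * K) ^ (2 * d))) ×ˢ
    Fintype.piFinset (fun _ : Fin d => Finset.Icc 1 (2 * K ^ 2 * (4 * K) ^ (2 * d + 1)))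

/-- centre of a box -/
noncomputable def ctr (d K : ℕ) (i : ℕ × (Fin d → ℕ)) : Fin (d + 1) → ℝ :=
  Fin.cons (4 * π * i.1 / (4 * K : ℝ) ^ (2 * d + 2))
    (fun j : Fin d => 2 * π / (4 * K : ℝ) ^ (2 * d + 3) *
      (i.2 j + i.1 / (4 * K : ℝ) ^ ((j : ℕ) + 1)))

/-- half side lengths of the boxes -/
noncomputable def hw (d K : ℕ) : Fin (d + 1) → ℝ :=
  Fin.cons (1 / (4 * K : ℝ) ^ (d + 2)) (fun _ => 1 / (2 * (4 * K : ℝ) ^ (2 * d + 4)))

/-- the box with index `i` -/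
noncomputable def box (d K : ℕ) (i : ℕ × (Fin d → ℕ)) : Set (Fin (d + 1) → ℝ) :=
  Set.Icc (ctr d K i - hw d K) (ctr d K i + hw d K)

theorem measurableSet_box (d K : ℕ) (i : ℕ × (Fin d → ℕ)) : MeasurableSet (box d K i) :=
  measurableSet_Icc

theorem mem_boxIdx (d K : ℕ) (i : ℕ × (Fin d → ℕ)) : i ∈ boxIdx d K ↔
    (1 ≤ i.1 ∧ i.1 ≤ K ^ 2 * (4 * K) ^ (2 * d)) ∧
      ∀ j, 1 ≤ i.2 j ∧ i.2 j ≤ 2 * K ^ 2 * (4 * K) ^ (2 * d + 1) := by
  unfold boxIdx
  simp [Finset.mem_product, Fintype.mem_piFinset, Finset.mem_Icc]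

theorem mem_box (d K : ℕ) (i : ℕ × (Fin d → ℕ)) (x : Fin (d + 1) → ℝ) : x ∈ box d K i ↔
    |x 0 - 4 * π * i.1 / (4 * K : ℝ) ^ (2 * d + 2)| ≤ 1 / (4 * K : ℝ) ^ (d + 2) ∧
      ∀ j : Fin d, |x j.succ - 2 * π / (4 * K : ℝ) ^ (2 * d + 3) *
        (i.2 j + i.1 / (4 * K : ℝ) ^ ((j : ℕ) + 1))| ≤ 1 / (2 * (4 * K : ℝ) ^ (2 * d + 4)) := by
  unfold box
  rw [Set.mem_Icc, Pi.le_def, Pi.le_def, Fin.forall_fin_succ, Fin.forall_fin_succ]
  simp only [Pi.sub_apply, Pi.add_apply, ctr, hw, Fin.cons_zero, Fin.cons_succ, abs_le]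
  constructor
  · rintro ⟨⟨h1, h2⟩, h3, h4⟩
    exact ⟨⟨by linarith, by linarith⟩, fun j => ⟨by linarith [h2 j], by linarith [h4 j]⟩⟩
  · rintro ⟨⟨h1, h2⟩, h3⟩
    exact ⟨⟨by linarith, fun j => by linarith [(h3 j).1]⟩, by linarith,
      fun j => by linarith [(h3 j).2]⟩

theorem volume_box (d K : ℕ) (i : ℕ × (Fin d → ℕ)) :
    volume (box d K i) = ENNReal.ofReal
      (2 / (4 * K : ℝ) ^ (d + 2) * (1 / (4 * K : ℝ) ^ (2 * d + 4)) ^ d) := by
  unfold box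
  rw [Real.volume_Icc_pi, Fin.prod_univ_succ]
  simp only [Pi.sub_apply, Pi.add_apply, ctr, hw, Fin.cons_zero, Fin.cons_succ]
  rw [ENNReal.ofReal_mul (by positivity), ENNReal.ofReal_pow (by positivity)]
  congr 1
  · congr 1
    ring
  · have e : ∀ j : Fin d, ENNReal.ofReal (2 * π / (4 * K : ℝ) ^ (2 * d + 3) *
        (i.2 j + i.1 / (4 * K : ℝ) ^ ((j : ℕ) + 1)) + 1 / (2 * (4 * K : ℝ) ^ (2 * d + 4)) -
        (2 * π / (4 * K : ℝ) ^ (2 * d + 3) *
        (i.2 j + i.1 / (4 * K : ℝ) ^ ((j : ℕ) + 1)) - 1 / (2 * (4 * K : ℝ) ^ (2 * d + 4)))) =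
        ENNReal.ofReal (1 / (4 * K : ℝ) ^ (2 * d + 4)) := by
      intro j
      congr 1
      ring
    simp_rw [e]
    rw [Finset.prod_const, Finset.card_univ, Fintype.card_fin]

theorem abs_sub_le_of_both {x c c' h : ℝ} (h1 : |x - c| ≤ h) (h2 : |x - c'| ≤ h) :
    |c - c'| ≤ 2 * h := by
  rw [abs_le] at *
  constructor <;> linarith [h1.1, h1.2, h2.1, h2.2]

theorem box_index_eq (d K : ℕ) (hK : 0 < K) (i i' : ℕ × (Fin d → ℕ)) (x : Fin (d + 1) → ℝ)
    (hx : x ∈ box d K i) (hx' : x ∈ box d K i') : i = i' := by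
  rw [mem_box] at hx hx'
  have hK' : (1 : ℝ) ≤ K := by exact_mod_cast hK
  set N : ℝ := (4 * K : ℝ) with hN
  have hN4 : 4 ≤ N := by rw [hN]; linarith
  have hN0 : 0 < N := by linarith
  have hpi3 := Real.pi_gt_three
  set δ : ℤ := (i.1 : ℤ) - i'.1 with hδ
  set m : Fin d → ℤ := fun j => ((i.2 j : ℤ) - i'.2 j) * (4 * K : ℤ) ^ ((j : ℕ) + 1) + δ with hm
  have hNz : ((4 * K : ℤ) : ℝ) = N := by rw [hN]; push_cast; ring
  have hmlt : ∀ j : Fin d, |m j| < (4 * K : ℤ) ^ (j : ℕ) := by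
    intro j
    have h := abs_sub_le_of_both (hx.2 j) (hx'.2 j)
    have e : 2 * π / N ^ (2 * d + 3) * ((i.2 j : ℝ) + i.1 / N ^ ((j : ℕ) + 1)) -
        2 * π / N ^ (2 * d + 3) * ((i'.2 j : ℝ) + i'.1 / N ^ ((j : ℕ) + 1)) =
        2 * π * (m j : ℝ) / (N ^ (2 * d + 3) * N ^ ((j : ℕ) + 1)) := by
      rw [hm, hδ]
      push_cast
      rw [← hN]
      field_simp
      ring
    rw [e, abs_div, abs_mul, abs_of_pos (by positivity : (0 : ℝ) < 2 * π),
      abs_of_pos (by positivity : (0 : ℝ) < N ^ (2 * d + 3) * N ^ ((j : ℕ) + 1)),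
      div_le_iff₀ (by positivity)] at h
    have e2 : 2 * (1 / (2 * N ^ (2 * d + 4))) * (N ^ (2 * d + 3) * N ^ ((j : ℕ) + 1)) =
        N ^ (j : ℕ) := by
      rw [pow_succ N (2 * d + 3), pow_succ N (j : ℕ)]
      field_simp
    rw [e2] at h
    have h3 : |(m j : ℝ)| < N ^ (j : ℕ) := by
      have hp : 0 < N ^ (j : ℕ) := by positivity
      have h0 := abs_nonneg (m j : ℝ)
      nlinarith
    have h4 : ((|m j| : ℤ) : ℝ) < (((4 * K : ℤ) ^ (j : ℕ) : ℤ) : ℝ) := by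
      rw [Int.cast_abs, Int.cast_pow, hNz]
      exact h3
    exact_mod_cast h4
  have hδlt : |δ| < (4 * K : ℤ) ^ d := by
    have h := abs_sub_le_of_both hx.1 hx'.1
    have e : 4 * π * (i.1 : ℝ) / N ^ (2 * d + 2) - 4 * π * (i'.1 : ℝ) / N ^ (2 * d + 2) =
        4 * π * (δ : ℝ) / N ^ (2 * d + 2) := by
      rw [hδ]
      push_cast
      ring
    rw [e, abs_div, abs_mul, abs_of_pos (by positivity : (0 : ℝ) < 4 * π),
      abs_of_pos (by positivity : (0 : ℝ) < N ^ (2 * d + 2)), div_le_iff₀ (by positivity)] at h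
    have e2 : 2 * (1 / N ^ (d + 2)) * N ^ (2 * d + 2) = 2 * N ^ d := by
      have : N ^ (2 * d + 2) = N ^ d * N ^ (d + 2) := by rw [← pow_add]; congr 1; ring
      rw [this]
      field_simp
    rw [e2] at h
    have h3 : |(δ : ℝ)| < N ^ d := by
      have hp : 0 < N ^ d := by positivity
      have h0 := abs_nonneg (δ : ℝ)
      nlinarith
    have h4 : ((|δ| : ℤ) : ℝ) < (((4 * K : ℤ) ^ d : ℤ) : ℝ) := by
      rw [Int.cast_abs, Int.cast_pow, hNz]
      exact h3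
    exact_mod_cast h4
  have hdvd : ∀ j : ℕ, j ≤ d → (4 * K : ℤ) ^ j ∣ δ := by
    intro j
    induction j with
    | zero => intro _; simp
    | succ j ih =>
      intro hj
      have hjd : j < d := by omega
      have h1 := ih (by omega)
      have h2 : (4 * K : ℤ) ^ j ∣ m ⟨j, hjd⟩ := by
        rw [hm]
        simp only
        apply dvd_add _ h1
        apply Dvd.dvd.mul_left
        exact pow_dvd_pow _ (by omega)
      have h3 : m ⟨j, hjd⟩ = 0 := Int.eq_zero_of_abs_lt_dvd h2 (hmlt ⟨j, hjd⟩)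
      have h4 : δ = -(((i.2 ⟨j, hjd⟩ : ℤ) - i'.2 ⟨j, hjd⟩) * (4 * K : ℤ) ^ (j + 1)) := by
        rw [hm] at h3
        simp only at h3
        linarith
      rw [h4]
      exact (Dvd.intro_left _ rfl).neg_right
  have hδ0 : δ = 0 := Int.eq_zero_of_abs_lt_dvd (hdvd d le_rfl) hδlt
  have h1 : i.1 = i'.1 := by
    have : (i.1 : ℤ) = i'.1 := by rw [hδ] at hδ0; linarith
    exact_mod_cast this
  have h2 : i.2 = i'.2 := by
    ext j
    have h3 : (4 * K : ℤ) ^ (j : ℕ) ∣ m j := by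
      rw [hm]
      simp only
      rw [hδ0, add_zero]
      apply Dvd.dvd.mul_left
      exact pow_dvd_pow _ (by omega)
    have h4 : m j = 0 := Int.eq_zero_of_abs_lt_dvd h3 (hmlt j)
    rw [hm] at h4
    simp only at h4
    rw [hδ0, add_zero] at h4
    have hKz : (4 * K : ℤ) ≠ 0 := by
      have : (0 : ℤ) < K := by exact_mod_cast hK
      omega
    have h5 : ((i.2 j : ℤ) - i'.2 j) = 0 := by
      rcases mul_eq_zero.1 h4 with h | h
      · exact h
      · exact absurd h (pow_ne_zero _ hKz)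
    have : (i.2 j : ℤ) = i'.2 j := by linarith
    exact_mod_cast this
  exact Prod.ext h1 h2

theorem card_boxIdx (d K : ℕ) :
    (boxIdx d K).card = K ^ 2 * (4 * K) ^ (2 * d) * (2 * K ^ 2 * (4 * K) ^ (2 * d + 1)) ^ d := by
  unfold boxIdx
  rw [Finset.card_product, Fintype.card_piFinset, Finset.prod_const, Finset.card_univ,
    Fintype.card_fin, Nat.card_Icc, Nat.card_Icc]
  simp

theorem total_volume (d K : ℕ) (hK : 0 < K) :
    ((K ^ 2 * (4 * K) ^ (2 * d) * (2 * K ^ 2 * (4 * K) ^ (2 * d + 1)) ^ d : ℕ) : ℝ) *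
      (2 / (4 * K : ℝ) ^ (d + 2) * (1 / (4 * K : ℝ) ^ (2 * d + 4)) ^ d) = (1 / 8) ^ (d + 1) := by
  have hK' : (0 : ℝ) < K := by exact_mod_cast hK
  push_cast
  set N : ℝ := (4 * K : ℝ) with hN
  have hN0 : 0 < N := by rw [hN]; positivity
  have hKN : (K : ℝ) = N / 4 := by rw [hN]; ring
  rw [hKN]
  have e1 : (N / 4) ^ 2 * N ^ (2 * d) * (2 / N ^ (d + 2)) = N ^ d / 8 := by
    have : N ^ (2 * d) = N ^ d * N ^ d := by rw [← pow_add]; congr 1; ring
    rw [this, pow_add]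
    field_simp
    norm_num
  have e2 : 2 * (N / 4) ^ 2 * N ^ (2 * d + 1) * (1 / N ^ (2 * d + 4)) = 1 / (8 * N) := by
    have : N ^ (2 * d + 4) = N ^ (2 * d + 1) * N ^ 3 := by rw [← pow_add]
    rw [this]
    field_simp
    norm_num
  calc (N / 4) ^ 2 * N ^ (2 * d) * (2 * (N / 4) ^ 2 * N ^ (2 * d + 1)) ^ d *
        (2 / N ^ (d + 2) * (1 / N ^ (2 * d + 4)) ^ d)
      = ((N / 4) ^ 2 * N ^ (2 * d) * (2 / N ^ (d + 2))) *
        (2 * (N / 4) ^ 2 * N ^ (2 * d + 1) * (1 / N ^ (2 * d + 4))) ^ d := by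
        rw [mul_pow _ (1 / N ^ (2 * d + 4)) d]; ring
    _ = N ^ d / 8 * (1 / (8 * N)) ^ d := by rw [e1, e2]
    _ = (1 / 8) ^ (d + 1) := by
        have e3 : (1 / (8 * N)) ^ d = (1 / 8) ^ d * (1 / N ^ d) := by
          rw [div_pow, mul_pow, one_pow, div_pow, one_pow]
          field_simp
        have hNd : N ^ d ≠ 0 := by positivity
        clear_value N
        rw [e3, pow_succ]
        field_simp

theorem volume_boxes (d K : ℕ) (hK : 0 < K) :
    volume (⋃ i ∈ boxIdx d K, box d K i) = ENNReal.ofReal ((1 / 8) ^ (d + 1)) := by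
  rw [measure_biUnion_finset]
  · simp_rw [volume_box]
    rw [Finset.sum_const, card_boxIdx, nsmul_eq_mul, ← total_volume d K hK,
      ENNReal.ofReal_mul (Nat.cast_nonneg _), ENNReal.ofReal_natCast]
  · intro i _ i' _ hne
    rw [Function.onFun, Set.disjoint_left]
    intro x hx hx'
    exact hne (box_index_eq d K hK i i' x hx hx')
  · intro i _
    exact measurableSet_box d K i

theorem box_abs_le (d K : ℕ) (hK : 0 < K) (i : ℕ × (Fin d → ℕ)) (hi : i ∈ boxIdx d K)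
    (x : Fin (d + 1) → ℝ) (hx : x ∈ box d K i) : ∀ j, |x j| ≤ 1 := by
  rw [mem_box] at hx
  rw [mem_boxIdx] at hi
  obtain ⟨⟨ha1, ha2⟩, hb⟩ := hi
  have hK' : (1 : ℝ) ≤ K := by exact_mod_cast hK
  set N : ℝ := (4 * K : ℝ) with hN
  have hN4 : 4 ≤ N := by rw [hN]; linarith
  have hN0 : 0 < N := by linarith
  have hN1 : 1 ≤ N := by linarith
  have hpi3 := Real.pi_gt_three
  have hpi := Real.pi_lt_d2
  have hKN : (K : ℝ) = N / 4 := by rw [hN]; ring
  have haR : (i.1 : ℝ) ≤ N ^ (2 * d + 2) / 16 := by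
    have : (i.1 : ℝ) ≤ ((K ^ 2 * (4 * K) ^ (2 * d) : ℕ) : ℝ) := by exact_mod_cast ha2
    refine this.trans (le_of_eq ?_)
    push_cast
    rw [← hN, hKN, pow_add]
    ring
  have ha0 : (0 : ℝ) ≤ i.1 := Nat.cast_nonneg _
  have hP : 1 / N ^ (d + 2) ≤ 1 / 16 := by
    apply one_div_le_one_div_of_le (by norm_num)
    calc (16 : ℝ) = 4 ^ 2 := by norm_num
      _ ≤ N ^ 2 := by gcongr
      _ ≤ N ^ (d + 2) := pow_le_pow_right₀ hN1 (by omega)
  have hR : 1 / (2 * N ^ (2 * d + 4)) ≤ 1 / 16 := by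
    apply one_div_le_one_div_of_le (by norm_num)
    have : (16 : ℝ) ≤ N ^ (2 * d + 4) := by
      calc (16 : ℝ) = 4 ^ 2 := by norm_num
        _ ≤ N ^ 2 := by gcongr
        _ ≤ N ^ (2 * d + 4) := pow_le_pow_right₀ hN1 (by omega)
    linarith
  intro j
  refine Fin.cases ?_ (fun j => ?_) j
  · have h1 : 4 * π * (i.1 : ℝ) / N ^ (2 * d + 2) ≤ π / 4 := by
      rw [div_le_iff₀ (by positivity)]
      nlinarith
    have h0 : 0 ≤ 4 * π * (i.1 : ℝ) / N ^ (2 * d + 2) := by positivity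
    have h := abs_le.1 hx.1
    rw [abs_le]
    constructor <;> linarith [h.1, h.2]
  · have hbR : (i.2 j : ℝ) ≤ N ^ (2 * d + 3) / 8 := by
      have : (i.2 j : ℝ) ≤ ((2 * K ^ 2 * (4 * K) ^ (2 * d + 1) : ℕ) : ℝ) := by
        exact_mod_cast (hb j).2
      refine this.trans (le_of_eq ?_)
      push_cast
      rw [← hN, hKN]
      have : N ^ (2 * d + 3) = N ^ (2 * d + 1) * N ^ 2 := by rw [← pow_add]
      rw [this]
      ring
    have hb0 : (0 : ℝ) ≤ i.2 j := Nat.cast_nonneg _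
    have hq : (i.1 : ℝ) / N ^ ((j : ℕ) + 1) ≤ N ^ (2 * d + 3) / 64 := by
      have h1 : (i.1 : ℝ) / N ^ ((j : ℕ) + 1) ≤ i.1 := by
        apply div_le_self ha0
        exact one_le_pow₀ hN1
      have h2 : N ^ (2 * d + 2) / 16 ≤ N ^ (2 * d + 3) / 64 := by
        have : N ^ (2 * d + 3) = N ^ (2 * d + 2) * N := by rw [← pow_succ]
        rw [this]
        have hp : 0 < N ^ (2 * d + 2) := by positivity
        nlinarith
      linarith
    have hq0 : 0 ≤ (i.1 : ℝ) / N ^ ((j : ℕ) + 1) := by positivity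
    have h1 : 2 * π / N ^ (2 * d + 3) * ((i.2 j : ℝ) + i.1 / N ^ ((j : ℕ) + 1)) ≤ 9 * π / 32 := by
      have hD : 0 < N ^ (2 * d + 3) := by positivity
      calc 2 * π / N ^ (2 * d + 3) * ((i.2 j : ℝ) + i.1 / N ^ ((j : ℕ) + 1))
          ≤ 2 * π / N ^ (2 * d + 3) * (N ^ (2 * d + 3) / 8 + N ^ (2 * d + 3) / 64) := by gcongr
        _ = 9 * π / 32 := by field_simp; norm_num
    have h0 : 0 ≤ 2 * π / N ^ (2 * d + 3) * ((i.2 j : ℝ) + i.1 / N ^ ((j : ℕ) + 1)) := by positivity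
    have h := abs_le.1 (hx.2 j)
    rw [abs_le]
    constructor <;> linarith [h.1, h.2]

theorem boxes_subset (d K : ℕ) (hK : 0 < K) :
    (⋃ i ∈ boxIdx d K, box d K i) ⊆ Set.Icc (-1) 1 := by
  intro x hx
  obtain ⟨i, hi, hxi⟩ := Set.mem_iUnion₂.1 hx
  have h := box_abs_le d K hK i hi x hxi
  rw [Set.mem_Icc, Pi.le_def, Pi.le_def]
  exact ⟨fun j => (abs_le.1 (h j)).1, fun j => (abs_le.1 (h j)).2⟩

end Vale.Agent.P076N
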