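import Mathlib
import Vale.Agent.P076.PiecePeak

/-! One-dimensional ingredients of the single-scale piece in any dimension. -/

namespace Vale.Agent.P076N

open MeasureTheory Complex Real
open Vale.Agent.P076

/-- Galilean boost: translating the Fourier datum by `c` moves the evolution by `2 t c`. -/
theorem norm_evol_shift (f : ℝ → ℝ) (t x c : ℝ) :
    ‖∫ ξ : ℝ, osc (I * t) x ξ * (f (ξ - c) : ℂ)‖ =
      ‖∫ ξ : ℝ, osc (I * t) (x - 2 * t * c) ξ * (f ξ : ℂ)‖ := by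
  have h1 : ∫ ξ : ℝ, osc (I * t) x ξ * (f (ξ - c) : ℂ) =
      ∫ ξ : ℝ, osc (I * t) x (ξ + c) * (f ξ : ℂ) := by
    rw [← integral_add_right_eq_self (fun ξ : ℝ => osc (I * t) x ξ * (f (ξ - c) : ℂ)) c]
    simp
  have h2 : ∀ ξ : ℝ, osc (I * t) x (ξ + c) * (f ξ : ℂ) =
      cexp (I * ((x * c - t * c ^ 2 : ℝ) : ℂ)) * (osc (I * t) (x - 2 * t * c) ξ * (f ξ : ℂ)) := by
    intro ξ
    rw [← mul_assoc]
    congr 1
    unfold osc
    rw [← Complex.exp_add]
    congr 1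
    push_cast
    ring
  rw [h1]
  simp_rw [h2]
  rw [integral_const_mul, norm_mul, mul_comm I, Complex.norm_exp_ofReal_mul_I, one_mul]

theorem packet_peak (P R t τ x₀ : ℝ) (hP : 2 ≤ P) (hR : R = P ^ 2) (hτ0 : 0 < τ)
    (htτ : t = τ * (1 + 4 * t ^ 2)) (ht1 : τ ≤ t) (htR : t ≤ 1 / R)
    (hx : |x₀ - 2 * R * τ| ≤ 1 / P) :
    P / 6 ≤ ‖∫ ξ : ℝ, osc (I * t) x₀ ξ * (gam1 R ξ : ℂ)‖ := by
  have hP0 : 0 < P := by linarith
  have hR0 : 0 < R := by rw [hR]; positivity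
  have ht0 : 0 < t := lt_of_lt_of_le hτ0 ht1
  have hpi3 := Real.pi_gt_three
  have ht2up : t ^ 2 ≤ 1 / R ^ 2 := by
    calc t ^ 2 ≤ (1 / R) ^ 2 := by gcongr
      _ = 1 / R ^ 2 := by rw [div_pow]; ring
  have hshift : 2 * R * t - 2 * R * τ ≤ 1 / P := by
    have h1 : 2 * R * t - 2 * R * τ = 8 * R * (τ * t ^ 2) := by
      nth_rewrite 1 [htτ]; ring
    rw [h1]
    have h2 : τ * t ^ 2 ≤ 1 / R * (1 / R ^ 2) := by
      have : τ ≤ 1 / R := ht1.trans htR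
      gcongr
    calc 8 * R * (τ * t ^ 2) ≤ 8 * R * (1 / R * (1 / R ^ 2)) := by gcongr
      _ = 8 / R ^ 2 := by field_simp
      _ = 8 / P ^ 4 := by rw [hR]; ring
      _ ≤ 1 / P := by
          rw [div_le_div_iff₀ (by positivity) (by positivity)]
          have h3 : (8 : ℝ) ≤ P ^ 3 := by
            calc (8 : ℝ) = 2 ^ 3 := by norm_num
              _ ≤ P ^ 3 := by gcongr
          have e : P ^ 4 = P ^ 3 * P := by ring
          rw [e]
          nlinarith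
  have hshift0 : 0 ≤ 2 * R * t - 2 * R * τ := by
    have : 2 * R * τ ≤ 2 * R * t := by gcongr
    linarith
  have habs : |x₀ - 2 * R * t| ≤ 2 / P := by
    rw [abs_le] at hx ⊢
    have e : (2 : ℝ) / P = 1 / P + 1 / P := by ring
    constructor <;> linarith [hx.1, hx.2]
  have hsq : (x₀ - 2 * R * t) ^ 2 ≤ 4 / R := by
    rw [← sq_abs]
    calc |x₀ - 2 * R * t| ^ 2 ≤ (2 / P) ^ 2 := by gcongr
      _ = 4 / R := by rw [div_pow, hR]; norm_num
  have h := packet_lower R hR0 t x₀ ht0.le htR hsq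
  refine le_trans ?_ h
  have h1 : 7 / 5 * P ≤ Real.sqrt (2 * π * R / 3) := by
    apply Real.le_sqrt_of_sq_le
    have e : (7 / 5 * P) ^ 2 = 49 / 25 * R := by rw [hR]; ring
    rw [e]
    nlinarith
  have h2 := exp_neg_two_ge
  calc P / 6 ≤ (7 / 5 * P) * (1 / 8) := by nlinarith
    _ ≤ _ := by gcongr

end Vale.Agent.P076N
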