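import Mathlib
import Vale.Agent.P076N.OneD

/-! Peak of the boosted comb. -/

namespace Vale.Agent.P076N

open MeasureTheory Complex Real
open Vale.Agent.P076

theorem exp_neg_one_ge : (1 : ℝ) / 3 ≤ Real.exp (-1) := by
  rw [Real.exp_neg, one_div, inv_le_inv₀ (by norm_num) (Real.exp_pos _)]
  have h4 := Real.exp_one_lt_d9
  linarith

set_option maxHeartbeats 1000000 in
/-- peak of the boosted comb at the times where all teeth are in phase -/
theorem scomb_peak (N D t x s : ℝ) (a b : ℤ) (hN : 4 ≤ N) (hD : 0 < D) (ht0 : 0 ≤ t)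
    (htD : D * t ≤ 1 / N) (ht8 : t ≤ 1 / 8)
    (ht : D ^ 2 * t / (1 + 4 * t ^ 2) = 2 * π * a)
    (hx : |x| ≤ 1) (hs0 : 0 ≤ s) (hs : s ≤ 1 / 8)
    (hδ : |2 * π * b + 4 * π * a * s - D * x / (1 + 4 * t ^ 2)| ≤ 1 / N) :
    N / 8 ≤ ‖∫ ξ : ℝ, osc (I * t) x ξ * (comb (1 / (2 * N ^ 2)) (1 / 2) D (ξ - D * s) : ℂ)‖ := by
  rw [norm_evol_shift (comb (1 / (2 * N ^ 2)) (1 / 2) D) t x (D * s)]
  have hN0 : 0 < N := by linarith
  have hpi := Real.pi_pos
  have hpi3 := Real.pi_gt_three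
  have hpi315 := Real.pi_lt_d2
  have hden : 0 < 1 + 4 * t ^ 2 := by positivity
  have hden1 : 1 ≤ 1 + 4 * t ^ 2 := by nlinarith [sq_nonneg t]
  set x' : ℝ := x - 2 * t * (D * s) with hx'
  set α : ℝ := 1 / (2 * N ^ 2) + 2 * D ^ 2 * t ^ 2 / (1 + 4 * t ^ 2) with hα
  have hαlo : 1 / (2 * N ^ 2) ≤ α := by
    rw [hα]
    have : 0 ≤ 2 * D ^ 2 * t ^ 2 / (1 + 4 * t ^ 2) := by positivity
    linarith
  have hα0 : 0 < α := lt_of_lt_of_le (by positivity) hαlo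
  have hDt0 : 0 ≤ D * t := by positivity
  have hαup : α ≤ 5 / (2 * N ^ 2) := by
    rw [hα]
    have h1 : 2 * D ^ 2 * t ^ 2 / (1 + 4 * t ^ 2) ≤ 2 * D ^ 2 * t ^ 2 :=
      div_le_self (by positivity) hden1
    have h2 : 2 * D ^ 2 * t ^ 2 ≤ 2 * (1 / N) ^ 2 := by
      have : (D * t) ^ 2 ≤ (1 / N) ^ 2 := by gcongr
      nlinarith
    have h3 : 2 * (1 / N) ^ 2 = 4 / (2 * N ^ 2) := by field_simp; norm_num
    have h4 : 5 / (2 * N ^ 2) = 1 / (2 * N ^ 2) + 4 / (2 * N ^ 2) := by ring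
    rw [h4]
    linarith
  set δ : ℝ := 2 * π * (b : ℝ) / ((1 : ℕ) : ℝ) - D * x' / (1 + 4 * t ^ 2) with hδdef
  have hδeq : δ = 2 * π * b + 4 * π * a * s - D * x / (1 + 4 * t ^ 2) := by
    have e1 : D * x' / (1 + 4 * t ^ 2) =
        D * x / (1 + 4 * t ^ 2) - 2 * s * (D ^ 2 * t / (1 + 4 * t ^ 2)) := by
      rw [hx']; field_simp
    rw [hδdef, e1, ht]
    simp only [Nat.cast_one, div_one]
    ring
  have hδabs : |δ| ≤ 1 / N := by rw [hδeq]; exact hδ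
  have hN2 : (16 : ℝ) ≤ N ^ 2 := by nlinarith
  have h := comb_peak (1 / (2 * N ^ 2)) D t x' (by positivity) 1 odd_one a b
    (by simpa using isCoprime_one_right)
    (by simpa using ht)
    (by
      rw [← hα, le_div_iff₀ (by positivity)]
      simp only [Nat.cast_one, one_pow, mul_one]
      have h1 : 4 * α ≤ 4 * (5 / (2 * N ^ 2)) := by gcongr
      have h2 : 4 * (5 / (2 * N ^ 2)) = 10 / N ^ 2 := by field_simp; norm_num
      have h3 : 10 / N ^ 2 ≤ 1 := by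
        rw [div_le_one (by positivity)]
        linarith
      nlinarith)
    (by
      rw [← hδdef]
      refine hδabs.trans ?_
      simp only [Nat.cast_one, div_one]
      have : 1 / N ≤ 1 := by
        rw [div_le_one hN0]; linarith
      linarith)
    (by
      rw [← hδdef, ← hα, ← sq_abs]
      calc |δ| ^ 2 ≤ (1 / N) ^ 2 := by gcongr
        _ = 2 * (1 / (2 * N ^ 2)) := by field_simp
        _ ≤ 2 * α := by gcongr)
  rw [← hα] at h
  refine le_trans ?_ h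
  have ht2' : t ^ 2 ≤ 1 / 64 := by
    calc t ^ 2 ≤ (1 / 8) ^ 2 := by gcongr
      _ = 1 / 64 := by norm_num
  have g1 : 2 ≤ Real.sqrt (2 * π / Real.sqrt (1 + 4 * t ^ 2)) := by
    apply Real.le_sqrt_of_sq_le
    have h1 : Real.sqrt (1 + 4 * t ^ 2) ≤ 3 / 2 := by
      rw [Real.sqrt_le_iff]
      constructor
      · norm_num
      · nlinarith
    have h2 : 0 < Real.sqrt (1 + 4 * t ^ 2) := Real.sqrt_pos.2 hden
    rw [le_div_iff₀ h2]
    norm_num
    linarith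
  have hx'abs : |x'| ≤ 1 + 1 / 16 := by
    rw [hx']
    have h1 : |2 * t * (D * s)| ≤ 1 / 16 := by
      rw [abs_of_nonneg (by positivity)]
      have h2 : 1 / N ≤ 1 / 4 := by
        apply one_div_le_one_div_of_le (by norm_num) hN
      have h3 : 2 * t * (D * s) = 2 * (D * t) * s := by ring
      rw [h3]
      have h4 : D * t ≤ 1 / 4 := htD.trans h2
      nlinarith
    calc |x - 2 * t * (D * s)| ≤ |x| + |2 * t * (D * s)| := abs_sub _ _
      _ ≤ 1 + 1 / 16 := add_le_add hx h1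
  have g2 : 1 / 3 ≤ Real.exp (-x' ^ 2 / (2 * (1 + 4 * t ^ 2))) := by
    have hx2 : x' ^ 2 ≤ 2 := by
      rw [← sq_abs]
      calc |x'| ^ 2 ≤ (1 + 1 / 16) ^ 2 := by gcongr
        _ ≤ 2 := by norm_num
    have h1 : -(1 : ℝ) ≤ -x' ^ 2 / (2 * (1 + 4 * t ^ 2)) := by
      rw [le_div_iff₀ (by positivity)]
      nlinarith
    exact exp_neg_one_ge.trans (Real.exp_le_exp.2 h1)
  have g3 : N ≤ Real.sqrt (π / (α * ((1 : ℕ) : ℝ))) := by
    apply Real.le_sqrt_of_sq_le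
    simp only [Nat.cast_one, mul_one]
    rw [le_div_iff₀ hα0]
    have h3 : N ^ 2 * α ≤ N ^ 2 * (5 / (2 * N ^ 2)) := by gcongr
    have h2 : N ^ 2 * (5 / (2 * N ^ 2)) = 5 / 2 := by field_simp
    linarith
  calc N / 8 ≤ 2 * (1 / 3) * (1 / 4 * N) := by nlinarith
    _ ≤ _ := by gcongr

end Vale.Agent.P076N
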