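import Mathlib
import Vale.Agent.P076N.OneD

/-! One-dimensional norm bounds. -/

namespace Vale.Agent.P076N

open MeasureTheory Complex Real
open Vale.Agent.P076

theorem integral_scomb_le (N D c : ℝ) (hN : 1 ≤ N) :
    Integrable (fun η : ℝ => comb (1 / (2 * N ^ 2)) (1 / 2) D (η - c)) ∧
      ∫ η : ℝ, comb (1 / (2 * N ^ 2)) (1 / 2) D (η - c) ≤ 13 * N := by
  have hN0 : 0 < N := by linarith
  have hpi := Real.pi_lt_d4
  have hpi0 := Real.pi_pos
  have hN2 : (1 : ℝ) ≤ N ^ 2 := one_le_pow₀ hN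
  refine ⟨(comb_integrable (1 / (2 * N ^ 2)) (1 / 2) D (by positivity) (by norm_num)).1.comp_sub_right c, ?_⟩
  rw [integral_sub_right_eq_self (fun η : ℝ => comb (1 / (2 * N ^ 2)) (1 / 2) D η) c]
  refine (integral_comb_le _ _ _ (by positivity)
    (by rw [div_le_one (by positivity)]; linarith) (by norm_num)).trans ?_
  have a1 : Real.sqrt (π / (1 / 2)) ≤ 2.51 * 1 := by
    apply sqrt_bd _ _ _ (by norm_num) (by norm_num)
    have : π / (1 / 2) = 2 * π := by ring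
    rw [this]; norm_num; linarith
  have a2 : Real.sqrt (π / (1 / (2 * N ^ 2))) ≤ 2.51 * N := by
    apply sqrt_bd _ _ _ (by norm_num) (by positivity)
    have : π / (1 / (2 * N ^ 2)) = 2 * π * N ^ 2 := by field_simp
    rw [this]
    nlinarith
  rw [mul_one] at a1
  calc Real.sqrt (π / (1 / 2)) * (2 * Real.sqrt (π / (1 / (2 * N ^ 2))))
      ≤ 2.51 * (2 * (2.51 * N)) := by gcongr
    _ = 12.6002 * N := by ring
    _ ≤ 13 * N := by gcongr; norm_num

theorem integral_scomb4_le (N D c : ℝ) (hN : 1 ≤ N) :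
    Integrable (fun η : ℝ => comb (1 / (4 * N ^ 2)) (1 / 4) D (η - c)) ∧
      ∫ η : ℝ, comb (1 / (4 * N ^ 2)) (1 / 4) D (η - c) ≤ 26 * N := by
  have hN0 : 0 < N := by linarith
  have hpi := Real.pi_lt_d4
  have hpi0 := Real.pi_pos
  have hN2 : (1 : ℝ) ≤ N ^ 2 := one_le_pow₀ hN
  refine ⟨(comb_integrable (1 / (4 * N ^ 2)) (1 / 4) D (by positivity) (by norm_num)).1.comp_sub_right c, ?_⟩
  rw [integral_sub_right_eq_self (fun η : ℝ => comb (1 / (4 * N ^ 2)) (1 / 4) D η) c]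
  refine (integral_comb_le _ _ _ (by positivity)
    (by rw [div_le_one (by positivity)]; linarith) (by norm_num)).trans ?_
  have a1 : Real.sqrt (π / (1 / 4)) ≤ 3.55 * 1 := by
    apply sqrt_bd _ _ _ (by norm_num) (by norm_num)
    have : π / (1 / 4) = 4 * π := by ring
    rw [this]; norm_num; linarith
  have a2 : Real.sqrt (π / (1 / (4 * N ^ 2))) ≤ 3.55 * N := by
    apply sqrt_bd _ _ _ (by norm_num) (by positivity)
    have : π / (1 / (4 * N ^ 2)) = 4 * π * N ^ 2 := by field_simp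
    rw [this]
    nlinarith
  rw [mul_one] at a1
  calc Real.sqrt (π / (1 / 4)) * (2 * Real.sqrt (π / (1 / (4 * N ^ 2))))
      ≤ 3.55 * (2 * (3.55 * N)) := by gcongr
    _ = 25.205 * N := by ring
    _ ≤ 26 * N := by gcongr; norm_num

theorem scomb_term_le (N D R η s l : ℝ) (hN : 1 ≤ N) (hD : 0 < D) (hR : R = D * N) (hR1 : 1 ≤ R)
    (hs : s ^ 2 ≤ 1) :
    (1 + (1 + η ^ 2) / R ^ 2) * (Real.exp (-(1 / (2 * N ^ 2)) * l ^ 2) *
      Real.exp (-(1 / 2) * (η - D * s - D * l) ^ 2)) ≤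
    16 * (Real.exp (-(1 / (4 * N ^ 2)) * l ^ 2) * Real.exp (-(1 / 4) * (η - D * s - D * l) ^ 2)) := by
  have hN0 : 0 < N := by linarith
  have hR0 : 0 < R := by linarith
  set v : ℝ := η - D * s - D * l with hv
  set u : ℝ := (1 / (4 * N ^ 2)) * l ^ 2 + (1 / 4) * v ^ 2 with hu
  have hu0 : 0 ≤ u := by positivity
  have hexp : 1 + u ≤ Real.exp u := by
    have := Real.add_one_le_exp u
    linarith
  have hN2 : (1 : ℝ) ≤ N ^ 2 := one_le_pow₀ hN
  have hR2 : (1 : ℝ) ≤ R ^ 2 := one_le_pow₀ hR1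
  have key : 1 + (1 + η ^ 2) / R ^ 2 ≤ 16 * (1 + u) := by
    have hη : η = v + D * (s + l) := by rw [hv]; ring
    have h1 : η ^ 2 ≤ 2 * v ^ 2 + 4 * D ^ 2 * s ^ 2 + 4 * D ^ 2 * l ^ 2 := by
      rw [hη]
      nlinarith [sq_nonneg (v - D * (s + l)), sq_nonneg (D * (s - l))]
    have h2 : (1 + η ^ 2) / R ^ 2 ≤ 1 + 2 * v ^ 2 + 4 + 4 * (l ^ 2 / N ^ 2) := by
      rw [div_le_iff₀ (by positivity)]
      have e1 : 4 * (l ^ 2 / N ^ 2) * R ^ 2 = 4 * D ^ 2 * l ^ 2 := by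
        rw [hR]; field_simp
      have e2 : D ^ 2 ≤ R ^ 2 := by
        rw [hR, mul_pow]
        have : 0 < D ^ 2 := by positivity
        nlinarith
      have e3 : 4 * D ^ 2 * s ^ 2 ≤ 4 * R ^ 2 := by
        have : 0 ≤ D ^ 2 := by positivity
        nlinarith
      have e4 : 2 * v ^ 2 ≤ 2 * v ^ 2 * R ^ 2 := by
        have : 0 ≤ v ^ 2 := by positivity
        nlinarith
      calc 1 + η ^ 2 ≤ 1 + (2 * v ^ 2 + 4 * D ^ 2 * s ^ 2 + 4 * D ^ 2 * l ^ 2) := by linarith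
        _ ≤ R ^ 2 + 2 * v ^ 2 * R ^ 2 + 4 * R ^ 2 + 4 * (l ^ 2 / N ^ 2) * R ^ 2 := by
            rw [e1]; linarith
        _ = _ := by ring
    have e5 : 16 * (1 + u) = 16 + 4 * (l ^ 2 / N ^ 2) + 4 * v ^ 2 := by
      rw [hu]; field_simp; ring
    rw [e5]
    have : 0 ≤ v ^ 2 := by positivity
    linarith
  rw [← Real.exp_add, ← Real.exp_add]
  have e1 : -(1 / (2 * N ^ 2)) * l ^ 2 + -(1 / 2) * v ^ 2 = -u + -u := by
    rw [hu]; ring
  have e2 : -(1 / (4 * N ^ 2)) * l ^ 2 + -(1 / 4) * v ^ 2 = -u := by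
    rw [hu]; ring
  rw [e1, e2, Real.exp_add]
  have h1 : Real.exp u * Real.exp (-u) = 1 := by rw [← Real.exp_add]; simp
  calc (1 + (1 + η ^ 2) / R ^ 2) * (Real.exp (-u) * Real.exp (-u))
      ≤ (16 * Real.exp u) * (Real.exp (-u) * Real.exp (-u)) := by
        gcongr
        exact key.trans (by gcongr)
    _ = 16 * (Real.exp u * Real.exp (-u)) * Real.exp (-u) := by ring
    _ = 16 * Real.exp (-u) := by rw [h1, mul_one]

theorem scomb_weight_le (N D R η s : ℝ) (hN : 1 ≤ N) (hD : 0 < D) (hR : R = D * N) (hR1 : 1 ≤ R)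
    (hs : s ^ 2 ≤ 1) :
    (1 + (1 + η ^ 2) / R ^ 2) * comb (1 / (2 * N ^ 2)) (1 / 2) D (η - D * s) ≤
      16 * comb (1 / (4 * N ^ 2)) (1 / 4) D (η - D * s) := by
  have hN0 : 0 < N := by linarith
  unfold comb
  rw [← tsum_mul_left, ← tsum_mul_left]
  apply Summable.tsum_le_tsum (fun ℓ : ℤ => scomb_term_le N D R η s ℓ hN hD hR hR1 hs)
  · exact (comb_summable _ _ _ _ (by positivity) (by norm_num)).mul_left _
  · exact (comb_summable _ _ _ _ (by positivity) (by norm_num)).mul_left _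

theorem packet_weight_le (R x r : ℝ) (hR : 1 ≤ R) (hr : |x| ≤ r) (ω : ℝ → ℝ) (hanti : Antitone ω)
    (hpos : ∀ r, 0 < ω r) :
    ω r * ((1 + (1 + x ^ 2) / R ^ 2) * gam1 R x ^ 2) ≤
      4 * (ω (R / 2) + ω 0 * Real.exp (-R / 16)) * Real.exp (-(1 / (4 * R)) * (x - R) ^ 2) := by
  have hR0 : 0 < R := by linarith
  set q : ℝ := (1 / (4 * R)) * (x - R) ^ 2 with hq
  have hq0 : 0 ≤ q := by positivity
  have hr0 : 0 ≤ r := (abs_nonneg x).trans hr
  have hE : 0 < Real.exp (-q) := Real.exp_pos _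
  -- polynomial weight
  have hw : 1 + (1 + x ^ 2) / R ^ 2 ≤ 4 * Real.exp (q + q) := by
    have h1 : 1 + (q + q) ≤ Real.exp (q + q) := by
      have := Real.add_one_le_exp (q + q)
      linarith
    have h2 : 1 + (1 + x ^ 2) / R ^ 2 ≤ 4 * (1 + (q + q)) := by
      have e : 4 * (1 + (q + q)) = (4 * R ^ 2 + 2 * R * (x - R) ^ 2) / R ^ 2 := by
        rw [hq]; field_simp; ring
      have e2 : 1 + (1 + x ^ 2) / R ^ 2 = (R ^ 2 + (1 + x ^ 2)) / R ^ 2 := by field_simp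
      rw [e, e2]
      apply div_le_div_of_nonneg_right _ (by positivity)
      have h3 : x ^ 2 ≤ 2 * R ^ 2 + 2 * (x - R) ^ 2 := by nlinarith [sq_nonneg (x - 2 * R)]
      have h4 : (x - R) ^ 2 ≤ R * (x - R) ^ 2 := by
        have := sq_nonneg (x - R)
        nlinarith
      have h5 : (1 : ℝ) ≤ R ^ 2 := one_le_pow₀ hR
      linarith
    linarith
  have hg : gam1 R x ^ 2 = Real.exp (-(q + q)) * (Real.exp (-q) * Real.exp (-q)) := by
    rw [gam1_sq_eq, ← Real.exp_add, ← Real.exp_add]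
    congr 1
    rw [hq]; field_simp; ring
  have h1 : Real.exp (q + q) * Real.exp (-(q + q)) = 1 := by rw [← Real.exp_add]; simp
  have hA : (1 + (1 + x ^ 2) / R ^ 2) * gam1 R x ^ 2 ≤ 4 * (Real.exp (-q) * Real.exp (-q)) := by
    rw [hg]
    calc (1 + (1 + x ^ 2) / R ^ 2) * (Real.exp (-(q + q)) * (Real.exp (-q) * Real.exp (-q)))
        ≤ (4 * Real.exp (q + q)) * (Real.exp (-(q + q)) * (Real.exp (-q) * Real.exp (-q))) := by
          gcongr
      _ = 4 * (Real.exp (q + q) * Real.exp (-(q + q))) * (Real.exp (-q) * Real.exp (-q)) := by ring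
      _ = _ := by rw [h1, mul_one]
  have hB : ω r * Real.exp (-q) ≤ ω (R / 2) + ω 0 * Real.exp (-R / 16) := by
    rcases le_or_gt (R / 2) x with h | h
    · have h1 : R / 2 ≤ r := h.trans ((le_abs_self x).trans hr)
      have h2 := hanti h1
      have h3 : Real.exp (-q) ≤ 1 := Real.exp_le_one_iff.2 (by linarith)
      have h4 : 0 < ω 0 * Real.exp (-R / 16) := mul_pos (hpos 0) (Real.exp_pos _)
      have h5 := hpos r
      nlinarith
    · have h1 : ω r ≤ ω 0 := hanti hr0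
      have h2 : R / 16 ≤ q := by
        have : (R / 2) ^ 2 ≤ (x - R) ^ 2 := by nlinarith
        have e : q = (x - R) ^ 2 / (4 * R) := by rw [hq]; ring
        rw [e, le_div_iff₀ (by positivity)]
        nlinarith
      have h3 : Real.exp (-q) ≤ Real.exp (-R / 16) := Real.exp_le_exp.2 (by linarith)
      have h4 := hpos (R / 2)
      have h5 := hpos r
      have h6 := (hpos 0).le
      calc ω r * Real.exp (-q) ≤ ω 0 * Real.exp (-R / 16) := by gcongr
        _ ≤ _ := by linarith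
  have e2 : -(1 / (4 * R)) * (x - R) ^ 2 = -q := by rw [hq]; ring
  rw [e2]
  calc ω r * ((1 + (1 + x ^ 2) / R ^ 2) * gam1 R x ^ 2)
      ≤ ω r * (4 * (Real.exp (-q) * Real.exp (-q))) :=
        mul_le_mul_of_nonneg_left hA (hpos r).le
    _ = 4 * (ω r * Real.exp (-q)) * Real.exp (-q) := by ring
    _ ≤ 4 * (ω (R / 2) + ω 0 * Real.exp (-R / 16)) * Real.exp (-q) := by gcongr

end Vale.Agent.P076N
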