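import Mathlib
import Vale.Agent.P076N.Basic
import Vale.Agent.P076N.Norm1D

/-! The single-scale piece in dimension `d + 1` and its norms. -/

namespace Vale.Agent.P076N

open MeasureTheory Real
open Vale.Agent.P076

/-- the boosted comb in the `j`-th transverse variable -/
noncomputable def scomb (d K : ℕ) (j : ℕ) (η : ℝ) : ℝ :=
  comb (1 / (2 * (4 * K : ℝ) ^ 2)) (1 / 2) ((4 * K : ℝ) ^ (2 * d + 3))
    (η - (4 * K : ℝ) ^ (2 * d + 3) * (1 / (2 * (4 * K : ℝ) ^ (j + 1))))

/-- one-dimensional factors of the piece -/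
noncomputable def fac (d K : ℕ) : Fin (d + 1) → ℝ → ℝ :=
  Fin.cons (gam1 ((4 * K : ℝ) ^ (2 * d + 4))) (fun j : Fin d => scomb d K j)

/-- the single-scale piece (Fourier side) at scale `N = 4 K` in dimension `d + 1` -/
noncomputable def piece (d K : ℕ) (ξ : Fin (d + 1) → ℝ) : ℝ := ∏ j, fac d K j (ξ j)

theorem scomb_nonneg (d K j : ℕ) (η : ℝ) : 0 ≤ scomb d K j η := comb_nonneg _ _ _ _

theorem fac_nonneg (d K : ℕ) (j : Fin (d + 1)) (η : ℝ) : 0 ≤ fac d K j η := by
  refine Fin.cases ?_ (fun j => ?_) j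
  · simp only [fac, Fin.cons_zero]
    exact (Real.exp_pos _).le
  · simp only [fac, Fin.cons_succ]
    exact scomb_nonneg _ _ _ _

theorem piece_nonneg (d K : ℕ) (ξ : Fin (d + 1) → ℝ) : 0 ≤ piece d K ξ :=
  Finset.prod_nonneg fun j _ => fac_nonneg d K j _

theorem gam1_integrable (R : ℝ) (hR : 0 < R) : Integrable (gam1 R) := by
  have : gam1 R = fun ξ => Real.exp (-(1 / (2 * R)) * (ξ - R) ^ 2) := by
    ext ξ; exact gam1_eq _ _
  rw [this]
  exact integrable_bump _ _ (by positivity)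

theorem scale_ge (K : ℕ) (hK : 0 < K) : (4 : ℝ) ≤ (4 * K : ℝ) := by
  have : (1 : ℝ) ≤ K := by exact_mod_cast hK
  linarith

theorem scomb_integrable (d K j : ℕ) (hK : 0 < K) :
    Integrable (scomb d K j) ∧ ∫ η, scomb d K j η ≤ 13 * (4 * K : ℝ) :=
  integral_scomb_le _ _ _ (by linarith [scale_ge K hK])

theorem fac_integrable (d K : ℕ) (hK : 0 < K) (j : Fin (d + 1)) : Integrable (fac d K j) := by
  have h4 := scale_ge K hK
  refine Fin.cases ?_ (fun j => ?_) j
  · simp only [fac, Fin.cons_zero]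
    exact gam1_integrable _ (by positivity)
  · simp only [fac, Fin.cons_succ]
    exact (scomb_integrable d K j hK).1

theorem piece_integrable (d K : ℕ) (hK : 0 < K) : Integrable (piece d K) :=
  Integrable.fintype_prod (f := fac d K) (fac_integrable d K hK)

theorem prod_bound_N {n : ℕ} (f : Fin n → ℝ → ℝ) (hf : ∀ j, Integrable (f j))
    (F : (Fin n → ℝ) → ℝ) (hFm : AEStronglyMeasurable F volume) (hF0 : ∀ ξ, 0 ≤ F ξ) (C : ℝ)
    (hF : ∀ ξ, F ξ ≤ C * ∏ j, f j (ξ j)) :
    Integrable F ∧ ∫ ξ, F ξ ≤ C * ∏ j, ∫ x, f j x := by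
  have hfg : Integrable (fun ξ : Fin n → ℝ => C * ∏ j, f j (ξ j)) :=
    (Integrable.fintype_prod (f := f) hf).const_mul C
  have hFi : Integrable F := by
    refine hfg.mono' hFm (Filter.Eventually.of_forall fun ξ => ?_)
    rw [Real.norm_of_nonneg (hF0 ξ)]
    exact hF ξ
  refine ⟨hFi, ?_⟩
  calc ∫ ξ, F ξ ≤ ∫ ξ : Fin n → ℝ, C * ∏ j, f j (ξ j) := integral_mono hFi hfg hF
    _ = C * ∏ j, ∫ x, f j x := by
      rw [integral_const_mul]
      congr 1
      exact integral_fintype_prod_volume_eq_prod f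

theorem scomb_le_three (d K j : ℕ) (hK : 0 < K) (η : ℝ) : scomb d K j η ≤ 3 := by
  have h4 := scale_ge K hK
  have h0 : (0 : ℝ) < (4 * K : ℝ) := by linarith
  apply comb_le_three _ _ _ _ (by positivity) (by norm_num) (by positivity)
  have h1 : (4 : ℝ) ≤ (4 * K : ℝ) ^ (2 * d + 3) := by
    calc (4 : ℝ) ≤ (4 * K : ℝ) := h4
      _ = (4 * K : ℝ) ^ 1 := (pow_one _).symm
      _ ≤ (4 * K : ℝ) ^ (2 * d + 3) := pow_le_pow_right₀ (by linarith) (by omega)
  nlinarith

theorem piece_sq (d K : ℕ) (hK : 0 < K) :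
    Integrable (fun ξ => piece d K ξ ^ 2) ∧
      ∫ ξ, piece d K ξ ^ 2 ≤ 2 * (4 * K : ℝ) ^ (d + 2) * (39 * (4 * K : ℝ)) ^ d := by
  have h4 := scale_ge K hK
  set N : ℝ := (4 * K : ℝ) with hN
  have hN0 : 0 < N := by linarith
  have hpi := Real.pi_lt_d4
  have hpi0 := Real.pi_pos
  set f : Fin (d + 1) → ℝ → ℝ :=
    Fin.cons (fun x => Real.exp (-(1 / N ^ (2 * d + 4)) * (x - N ^ (2 * d + 4)) ^ 2))
      (fun (j : Fin d) η => 3 * scomb d K j η) with hf
  have hfint : ∀ j, Integrable (f j) := by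
    intro j
    refine Fin.cases ?_ (fun j => ?_) j
    · simp only [hf, Fin.cons_zero]
      exact integrable_bump _ _ (by positivity)
    · simp only [hf, Fin.cons_succ]
      exact (scomb_integrable d K j hK).1.const_mul _
  have hb := prod_bound_N f hfint (fun ξ => piece d K ξ ^ 2)
    ((piece_integrable d K hK).1.pow 2) (fun ξ => sq_nonneg _) 1 (fun ξ => by
      rw [one_mul]
      unfold piece
      rw [← Finset.prod_pow]
      apply Finset.prod_le_prod (fun j _ => sq_nonneg _)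
      intro j _
      refine Fin.cases ?_ (fun j => ?_) j
      · simp only [hf, fac, Fin.cons_zero]
        rw [gam1_sq_eq]
      · simp only [hf, fac, Fin.cons_succ]
        have h3 := scomb_le_three d K j hK (ξ j.succ)
        have h0 := scomb_nonneg d K j (ξ j.succ)
        nlinarith)
  refine ⟨hb.1, hb.2.trans ?_⟩
  rw [one_mul, Fin.prod_univ_succ]
  simp only [hf, Fin.cons_zero, Fin.cons_succ]
  have i1 : ∫ x : ℝ, Real.exp (-(1 / N ^ (2 * d + 4)) * (x - N ^ (2 * d + 4)) ^ 2) ≤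
      2 * N ^ (d + 2) := by
    rw [integral_bump]
    apply sqrt_bd _ _ _ (by norm_num) (by positivity)
    have : π / (1 / N ^ (2 * d + 4)) = π * (N ^ (d + 2)) ^ 2 := by
      rw [← pow_mul]
      have : (d + 2) * 2 = 2 * d + 4 := by ring
      rw [this]
      field_simp
    rw [this]
    have : 0 ≤ (N ^ (d + 2)) ^ 2 := by positivity
    nlinarith
  have i2 : ∏ j : Fin d, ∫ η, 3 * scomb d K j η ≤ (39 * N) ^ d := by
    calc ∏ j : Fin d, ∫ η, 3 * scomb d K j η ≤ ∏ _j : Fin d, 39 * N := by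
          apply Finset.prod_le_prod
          · intro j _
            exact integral_nonneg fun η => mul_nonneg (by norm_num) (scomb_nonneg _ _ _ _)
          · intro j _
            rw [integral_const_mul]
            have := (scomb_integrable d K j hK).2
            rw [← hN] at this
            linarith
      _ = (39 * N) ^ d := by rw [Finset.prod_const, Finset.card_univ, Fintype.card_fin]
  have h0 : 0 ≤ ∏ j : Fin d, ∫ η, 3 * scomb d K j η :=
    Finset.prod_nonneg fun j _ =>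
      integral_nonneg fun η => mul_nonneg (by norm_num) (scomb_nonneg _ _ _ _)
  calc _ ≤ (2 * N ^ (d + 2)) * (39 * N) ^ d := by gcongr

end Vale.Agent.P076N
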