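import Mathlib
import Vale.Agent.P076N.Piece
import Vale.Agent.P076N.CombPeak
import Vale.Agent.P076N.Boxes

/-! Peaks of the single-scale piece on the boxes, and its decay at later times. -/

namespace Vale.Agent.P076N

open MeasureTheory Complex Real
open Vale.Agent.P076

theorem norm_schrodReg_piece (d K : ℕ) (a t : ℝ) (x : Fin (d + 1) → ℝ) :
    ‖schrodReg (d + 1) (fun ξ => (piece d K ξ : ℂ)) a t x‖ = ((2 * π) ^ (d + 1))⁻¹ *
      (‖∫ ξ : ℝ, osc ((a : ℂ) + I * t) (x 0) ξ * (gam1 ((4 * K : ℝ) ^ (2 * d + 4)) ξ : ℂ)‖ *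
       ∏ j : Fin d, ‖∫ ξ : ℝ, osc ((a : ℂ) + I * t) (x j.succ) ξ * (scomb d K j ξ : ℂ)‖) := by
  unfold piece
  rw [schrodReg_prod, norm_mul, norm_const_inv, norm_prod, Fin.prod_univ_succ]
  simp only [fac, Fin.cons_zero, Fin.cons_succ]

/-- the height of the peaks at scale `N = 4 K` -/
noncomputable def peakHeight (d K : ℕ) : ℝ :=
  ((2 * π) ^ (d + 1))⁻¹ * ((4 * K : ℝ) ^ (d + 2) / 6 * ((4 * K : ℝ) / 8) ^ d)

set_option maxHeartbeats 1000000 in
theorem piece_peak (d K : ℕ) (hK : 0 < K) (i : ℕ × (Fin d → ℕ)) (hi : i ∈ boxIdx d K)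
    (x : Fin (d + 1) → ℝ) (hx : x ∈ box d K i) :
    ∃ t : ℝ, 1 / ((4 * K : ℝ) ^ (2 * d + 3)) ^ 2 ≤ t ∧ t ≤ 1 / (4 * K : ℝ) ^ (2 * d + 4) ∧
      peakHeight d K ≤ ‖schrodReg (d + 1) (fun ξ => (piece d K ξ : ℂ)) 0 t x‖ := by
  have habs := box_abs_le d K hK i hi x hx
  rw [mem_box] at hx
  obtain ⟨⟨ha1, ha2⟩, hb⟩ := (mem_boxIdx d K i).1 hi
  have h4 := scale_ge K hK
  set N : ℝ := (4 * K : ℝ) with hN
  have hN0 : 0 < N := by linarith
  have hN1 : 1 ≤ N := by linarith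
  have hpi := Real.pi_pos
  have hpi3 := Real.pi_gt_three
  have hpi4 := Real.pi_lt_four
  set D : ℝ := N ^ (2 * d + 3) with hD
  set R : ℝ := N ^ (2 * d + 4) with hR
  set P : ℝ := N ^ (d + 2) with hP
  have hD0 : 0 < D := by positivity
  have hR0 : 0 < R := by positivity
  have hRD : R = D * N := by rw [hR, hD, ← pow_succ]
  have hRP : R = P ^ 2 := by rw [hR, hP, ← pow_mul]; congr 1; ring
  have hP16 : 16 ≤ P := by
    calc (16 : ℝ) = 4 ^ 2 := by norm_num
      _ ≤ N ^ 2 := by gcongr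
      _ ≤ N ^ (d + 2) := pow_le_pow_right₀ hN1 (by omega)
  have hR16 : 256 ≤ R := by rw [hRP]; nlinarith
  have hKN : (K : ℝ) = N / 4 := by rw [hN]; ring
  have haR : (i.1 : ℝ) ≤ N ^ (2 * d + 2) / 16 := by
    have : (i.1 : ℝ) ≤ ((K ^ 2 * (4 * K) ^ (2 * d) : ℕ) : ℝ) := by exact_mod_cast ha2
    refine this.trans (le_of_eq ?_)
    push_cast
    rw [← hN, hKN, pow_add]
    ring
  have ha1' : (1 : ℝ) ≤ i.1 := by exact_mod_cast ha1
  have hD2 : D ^ 2 = N ^ (2 * d + 2) * R := by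
    rw [hD, hR, ← pow_mul, ← pow_add]; congr 1; ring
  -- the time
  set τ : ℝ := 2 * π * i.1 / D ^ 2 with hτ
  have hτ0 : 0 < τ := by positivity
  have hτup : τ ≤ π / (8 * R) := by
    rw [hτ, hD2, div_le_div_iff₀ (by positivity) (by positivity)]
    have hp : 0 < N ^ (2 * d + 2) := by positivity
    calc 2 * π * i.1 * (8 * R) ≤ 2 * π * (N ^ (2 * d + 2) / 16) * (8 * R) := by gcongr
      _ = π * (N ^ (2 * d + 2) * R) := by ring
  have hτlo : 1 / D ^ 2 ≤ τ := by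
    rw [hτ]
    apply div_le_div_of_nonneg_right _ (by positivity)
    nlinarith
  have hτ14 : τ ≤ 1 / 4 := by
    refine hτup.trans ?_
    rw [div_le_div_iff₀ (by positivity) (by norm_num)]
    nlinarith
  obtain ⟨t, ht1, ht2, ht3⟩ := time_exists τ hτ0 hτ14
  have ht0 : 0 < t := lt_of_lt_of_le hτ0 ht1
  have htup : t ≤ π / (4 * R) := by
    calc t ≤ 2 * τ := ht2
      _ ≤ 2 * (π / (8 * R)) := by gcongr
      _ = π / (4 * R) := by field_simp; norm_num
  have htR : t ≤ 1 / R := by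
    refine htup.trans ?_
    rw [div_le_div_iff₀ (by positivity) (by positivity)]
    nlinarith
  refine ⟨t, hτlo.trans ht1, htR, ?_⟩
  have hden : 0 < 1 + 4 * t ^ 2 := by positivity
  have hden1 : 1 ≤ 1 + 4 * t ^ 2 := by nlinarith [sq_nonneg t]
  have htτ : t = τ * (1 + 4 * t ^ 2) := by
    field_simp at ht3
    linarith
  rw [norm_schrodReg_piece]
  simp only [Complex.ofReal_zero, zero_add]
  rw [← hN, ← hR]
  have hcen : 2 * R * τ = 4 * π * i.1 / N ^ (2 * d + 2) := by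
    rw [hτ, hD2]; field_simp; ring
  have hA := packet_peak P R t τ (x 0) (by linarith) hRP hτ0 htτ ht1 htR (by
    rw [hcen]; exact hx.1)
  have ht8 : t ≤ 1 / 8 := by
    refine htR.trans ?_
    apply one_div_le_one_div_of_le (by norm_num)
    linarith
  have htD : D * t ≤ 1 / N := by
    calc D * t ≤ D * (1 / R) := by gcongr
      _ = 1 / N := by rw [hRD]; field_simp
  have ht2R : t ^ 2 ≤ 1 / R ^ 2 := by
    calc t ^ 2 ≤ (1 / R) ^ 2 := by gcongr
      _ = 1 / R ^ 2 := by rw [div_pow, one_pow]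
  have hB : ∀ j : Fin d, N / 8 ≤ ‖∫ ξ : ℝ, osc (I * t) (x j.succ) ξ * (scomb d K j ξ : ℂ)‖ := by
    intro j
    have hNj : (4 : ℝ) ≤ N ^ ((j : ℕ) + 1) := by
      calc (4 : ℝ) ≤ N := h4
        _ = N ^ 1 := (pow_one N).symm
        _ ≤ N ^ ((j : ℕ) + 1) := pow_le_pow_right₀ hN1 (by omega)
    have hxj := habs j.succ
    apply scomb_peak N D t (x j.succ) (1 / (2 * N ^ ((j : ℕ) + 1))) (i.1 : ℤ) (i.2 j : ℤ) h4 hD0
      ht0.le htD ht8 _ hxj (by positivity) _ _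
    · have : D ^ 2 * t / (1 + 4 * t ^ 2) = D ^ 2 * (t / (1 + 4 * t ^ 2)) := by ring
      rw [this, ht3, hτ]
      simp only [Int.cast_natCast]
      field_simp
    · apply one_div_le_one_div_of_le (by norm_num)
      linarith
    · simp only [Int.cast_natCast]
      set c : ℝ := 2 * π / D * ((i.2 j : ℝ) + i.1 / N ^ ((j : ℕ) + 1)) with hc
      have e : 2 * π * (i.2 j : ℝ) + 4 * π * (i.1 : ℝ) * (1 / (2 * N ^ ((j : ℕ) + 1))) -
          D * x j.succ / (1 + 4 * t ^ 2) =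
          D * (c - x j.succ) + D * x j.succ * (4 * t ^ 2 / (1 + 4 * t ^ 2)) := by
        rw [hc]
        field_simp
        ring
      rw [e]
      have h1 : |D * (c - x j.succ)| ≤ 1 / (2 * N) := by
        rw [abs_mul, abs_of_pos hD0, abs_sub_comm]
        calc D * |x j.succ - c| ≤ D * (1 / (2 * R)) := by
              gcongr
              exact hx.2 j
          _ = 1 / (2 * N) := by rw [hRD]; field_simp
      have h2 : |D * x j.succ * (4 * t ^ 2 / (1 + 4 * t ^ 2))| ≤ 1 / (2 * N) := by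
        rw [abs_mul, abs_mul, abs_of_pos hD0, abs_of_nonneg (by positivity : 0 ≤ 4 * t ^ 2 / (1 + 4 * t ^ 2))]
        have h3 : 4 * t ^ 2 / (1 + 4 * t ^ 2) ≤ 4 * t ^ 2 := div_le_self (by positivity) hden1
        calc D * |x j.succ| * (4 * t ^ 2 / (1 + 4 * t ^ 2)) ≤ D * 1 * (4 * (1 / R ^ 2)) := by
              gcongr
              exact h3.trans (by gcongr)
          _ = 4 / (N * R) := by rw [hRD]; field_simp
          _ ≤ 1 / (2 * N) := by
              rw [div_le_div_iff₀ (by positivity) (by positivity)]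
              nlinarith
      calc _ ≤ |D * (c - x j.succ)| + |D * x j.succ * (4 * t ^ 2 / (1 + 4 * t ^ 2))| :=
            abs_add_le _ _
        _ ≤ 1 / (2 * N) + 1 / (2 * N) := add_le_add h1 h2
        _ = 1 / N := by field_simp; norm_num
  have hBprod : (N / 8) ^ d ≤
      ∏ j : Fin d, ‖∫ ξ : ℝ, osc (I * t) (x j.succ) ξ * (scomb d K j ξ : ℂ)‖ := by
    calc (N / 8) ^ d = ∏ _j : Fin d, N / 8 := by
          rw [Finset.prod_const, Finset.card_univ, Fintype.card_fin]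
      _ ≤ _ := Finset.prod_le_prod (fun j _ => by positivity) (fun j _ => hB j)
  unfold peakHeight
  rw [← hN, ← hP]
  gcongr

theorem piece_tail (d K : ℕ) (hK : 0 < K) (a t t₀ : ℝ) (ha : 0 ≤ a) (ht₀ : 0 < t₀) (ht : t₀ ≤ t)
    (x : Fin (d + 1) → ℝ) (hx : x ∈ (Set.Icc (-1) 1 : Set (Fin (d + 1) → ℝ))) :
    ‖schrodReg (d + 1) (fun ξ => (piece d K ξ : ℂ)) a t x‖ ≤ ((2 * π) ^ (d + 1))⁻¹ *
      (Real.sqrt (π / t₀) * Real.exp (1 / t₀ - (4 * K : ℝ) ^ (2 * d + 4) / 2) *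
        (13 * (4 * K : ℝ)) ^ d) := by
  have h4 := scale_ge K hK
  have hN0 : (0 : ℝ) < (4 * K : ℝ) := by linarith
  have hpi := Real.pi_pos
  rw [norm_schrodReg_piece]
  have hx1 : |x 0| ≤ 1 := by
    rw [abs_le]
    exact ⟨hx.1 0, hx.2 0⟩
  have hA := packet_upper ((4 * K : ℝ) ^ (2 * d + 4)) (by positivity) a t t₀ (x 0) ha ht₀ ht hx1
  have hB : ∀ j : Fin d, ‖∫ ξ : ℝ, osc ((a : ℂ) + I * t) (x j.succ) ξ * (scomb d K j ξ : ℂ)‖ ≤
      13 * (4 * K : ℝ) := by
    intro j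
    obtain ⟨hci, hcv⟩ := scomb_integrable d K j hK
    calc _ ≤ ∫ ξ : ℝ, ‖osc ((a : ℂ) + I * t) (x j.succ) ξ * (scomb d K j ξ : ℂ)‖ :=
          norm_integral_le_integral_norm _
      _ ≤ ∫ ξ : ℝ, scomb d K j ξ := by
          apply integral_mono_of_nonneg (Filter.Eventually.of_forall fun ξ => norm_nonneg _) hci
          refine Filter.Eventually.of_forall fun ξ => ?_
          simp only [norm_mul, Complex.norm_real]
          rw [Real.norm_of_nonneg (scomb_nonneg _ _ _ _)]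
          calc _ ≤ 1 * scomb d K j ξ := by
                gcongr
                · exact scomb_nonneg _ _ _ _
                · exact norm_osc_le_one _ (by simpa using ha) _ _
            _ = _ := one_mul _
      _ ≤ _ := hcv
  have hBprod : ∏ j : Fin d, ‖∫ ξ : ℝ, osc ((a : ℂ) + I * t) (x j.succ) ξ * (scomb d K j ξ : ℂ)‖ ≤
      (13 * (4 * K : ℝ)) ^ d := by
    calc _ ≤ ∏ _j : Fin d, 13 * (4 * K : ℝ) :=
          Finset.prod_le_prod (fun j _ => norm_nonneg _) (fun j _ => hB j)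
      _ = _ := by rw [Finset.prod_const, Finset.card_univ, Fintype.card_fin]
  have h0 : 0 ≤ ∏ j : Fin d, ‖∫ ξ : ℝ, osc ((a : ℂ) + I * t) (x j.succ) ξ * (scomb d K j ξ : ℂ)‖ :=
    Finset.prod_nonneg fun j _ => norm_nonneg _
  gcongr

end Vale.Agent.P076N
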