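import Mathlib
import Vale.Agent.P076N.Piece

/-! The weighted norm of the single-scale piece. -/

namespace Vale.Agent.P076N

open MeasureTheory Real
open Vale.Agent.P076

theorem rpow_le_scale (y A s : ℝ) (hy : 0 ≤ y) (hA : 0 < A) (hs0 : 0 ≤ s) (hs1 : s ≤ 1) :
    y ^ s ≤ A ^ s * (1 + y / A) := by
  have e : y = A * (y / A) := by field_simp
  have hz : 0 ≤ y / A := by positivity
  set z : ℝ := y / A with hzdef
  rw [e, Real.mul_rpow hA.le hz]
  apply mul_le_mul_of_nonneg_left _ (Real.rpow_nonneg hA.le _)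
  rcases le_total z 1 with h | h
  · have := Real.rpow_le_one hz h hs0
    linarith
  · have := Real.rpow_le_rpow_of_exponent_le h hs1
    rw [Real.rpow_one] at this
    linarith

theorem scale_rpow (N : ℝ) (hN : 0 < N) (d : ℕ) :
    ((N ^ (2 * d + 4)) ^ 2) ^ (((d + 1 : ℕ) : ℝ) / (2 * (((d + 1 : ℕ) : ℝ) + 1))) =
      N ^ (2 * d + 2) := by
  rw [← pow_mul, ← Real.rpow_natCast, ← Real.rpow_mul hN.le, ← Real.rpow_natCast]
  congr 1
  push_cast
  have : (d : ℝ) + 1 + 1 ≠ 0 := by positivity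
  field_simp
  ring

theorem one_add_sum_le_prod {ι : Type*} (s : Finset ι) (y : ι → ℝ) (hy : ∀ i, 0 ≤ y i) :
    1 + ∑ i ∈ s, y i ≤ ∏ i ∈ s, (1 + y i) := by
  classical
  induction s using Finset.induction_on with
  | empty => simp
  | insert a s ha ih =>
    rw [Finset.sum_insert ha, Finset.prod_insert ha]
    have h1 : 0 ≤ ∑ i ∈ s, y i := Finset.sum_nonneg fun i _ => hy i
    have h2 := hy a
    nlinarith

/-- the polynomial weight is dominated by a product of one-dimensional weights -/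
theorem weight_le_prod (N : ℝ) (hN : 0 < N) (d : ℕ) (ξ : Fin (d + 1) → ℝ) :
    (1 + ∑ j, ξ j ^ 2) ^ (((d + 1 : ℕ) : ℝ) / (2 * (((d + 1 : ℕ) : ℝ) + 1))) ≤
      N ^ (2 * d + 2) * ∏ j, (1 + (1 + ξ j ^ 2) / (N ^ (2 * d + 4)) ^ 2) := by
  have hsum : 0 ≤ ∑ j, ξ j ^ 2 := Finset.sum_nonneg fun j _ => sq_nonneg _
  set A : ℝ := (N ^ (2 * d + 4)) ^ 2 with hA
  have hA0 : 0 < A := by positivity
  have hs0 : 0 ≤ ((d + 1 : ℕ) : ℝ) / (2 * (((d + 1 : ℕ) : ℝ) + 1)) := by positivity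
  have hs1 : ((d + 1 : ℕ) : ℝ) / (2 * (((d + 1 : ℕ) : ℝ) + 1)) ≤ 1 := by
    rw [div_le_one (by positivity)]
    have : (0 : ℝ) ≤ ((d + 1 : ℕ) : ℝ) := Nat.cast_nonneg _
    linarith
  refine (rpow_le_scale _ A _ (by positivity) hA0 hs0 hs1).trans ?_
  rw [hA, scale_rpow N hN d, ← hA]
  apply mul_le_mul_of_nonneg_left _ (by positivity)
  refine le_trans ?_ (one_add_sum_le_prod Finset.univ (fun j => (1 + ξ j ^ 2) / A)
    (fun j => by positivity))
  rw [← Finset.sum_div, Finset.sum_add_distrib]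
  have : (1 : ℝ) ≤ ∑ _j : Fin (d + 1), (1 : ℝ) := by
    simp
  gcongr

/-- the widened comb dominating the weighted square of the boosted comb -/
noncomputable def scomb4 (d K : ℕ) (j : ℕ) (η : ℝ) : ℝ :=
  comb (1 / (4 * (4 * K : ℝ) ^ 2)) (1 / 4) ((4 * K : ℝ) ^ (2 * d + 3))
    (η - (4 * K : ℝ) ^ (2 * d + 3) * (1 / (2 * (4 * K : ℝ) ^ (j + 1))))

theorem scomb4_nonneg (d K j : ℕ) (η : ℝ) : 0 ≤ scomb4 d K j η := comb_nonneg _ _ _ _

theorem scomb4_integrable (d K j : ℕ) (hK : 0 < K) :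
    Integrable (scomb4 d K j) ∧ ∫ η, scomb4 d K j η ≤ 26 * (4 * K : ℝ) :=
  integral_scomb4_le _ _ _ (by linarith [scale_ge K hK])

theorem scomb_sq_weight_le (d K j : ℕ) (hK : 0 < K) (η : ℝ) :
    (1 + (1 + η ^ 2) / ((4 * K : ℝ) ^ (2 * d + 4)) ^ 2) * scomb d K j η ^ 2 ≤
      48 * scomb4 d K j η := by
  have h4 := scale_ge K hK
  set N : ℝ := (4 * K : ℝ) with hN
  have hN0 : 0 < N := by linarith
  have hN1 : 1 ≤ N := by linarith
  have h3 := scomb_le_three d K j hK η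
  have h0 := scomb_nonneg d K j η
  have hw : 0 ≤ 1 + (1 + η ^ 2) / (N ^ (2 * d + 4)) ^ 2 := by positivity
  have hs : (1 / (2 * N ^ (j + 1))) ^ 2 ≤ 1 := by
    have h1 : 1 / (2 * N ^ (j + 1)) ≤ 1 := by
      rw [div_le_one (by positivity)]
      have : (1 : ℝ) ≤ N ^ (j + 1) := one_le_pow₀ hN1
      linarith
    have h2 : 0 ≤ 1 / (2 * N ^ (j + 1)) := by positivity
    exact pow_le_one₀ h2 h1
  have h := scomb_weight_le N (N ^ (2 * d + 3)) (N ^ (2 * d + 4)) η (1 / (2 * N ^ (j + 1))) hN1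
    (by positivity) (by rw [← pow_succ]) (one_le_pow₀ hN1) hs
  have e1 : scomb d K j η = comb (1 / (2 * N ^ 2)) (1 / 2) (N ^ (2 * d + 3))
      (η - N ^ (2 * d + 3) * (1 / (2 * N ^ (j + 1)))) := rfl
  have e2 : scomb4 d K j η = comb (1 / (4 * N ^ 2)) (1 / 4) (N ^ (2 * d + 3))
      (η - N ^ (2 * d + 3) * (1 / (2 * N ^ (j + 1)))) := rfl
  rw [← e1, ← e2] at h
  calc (1 + (1 + η ^ 2) / (N ^ (2 * d + 4)) ^ 2) * scomb d K j η ^ 2
      ≤ (1 + (1 + η ^ 2) / (N ^ (2 * d + 4)) ^ 2) * (3 * scomb d K j η) := by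
        apply mul_le_mul_of_nonneg_left _ hw
        nlinarith
    _ = 3 * ((1 + (1 + η ^ 2) / (N ^ (2 * d + 4)) ^ 2) * scomb d K j η) := by ring
    _ ≤ 3 * (16 * scomb4 d K j η) := by gcongr
    _ = 48 * scomb4 d K j η := by ring

/-- the small factor gained from the weight `ω` at scale `N = 4 K` -/
noncomputable def omegaGain (ω : ℝ → ℝ) (d K : ℕ) : ℝ :=
  ω ((4 * K : ℝ) ^ (2 * d + 4) / 2) + ω 0 * Real.exp (-(4 * K : ℝ) ^ (2 * d + 4) / 16)

theorem piece_weighted (d K : ℕ) (hK : 0 < K) (ω : ℝ → ℝ) (hanti : Antitone ω)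
    (hpos : ∀ r, 0 < ω r) :
    Integrable (fun ξ : Fin (d + 1) → ℝ =>
      (1 + ∑ j, ξ j ^ 2) ^ (((d + 1 : ℕ) : ℝ) / (2 * (((d + 1 : ℕ) : ℝ) + 1))) *
        ω (Real.sqrt (∑ j, ξ j ^ 2)) * piece d K ξ ^ 2) ∧
    ∫ ξ : Fin (d + 1) → ℝ,
      (1 + ∑ j, ξ j ^ 2) ^ (((d + 1 : ℕ) : ℝ) / (2 * (((d + 1 : ℕ) : ℝ) + 1))) *
        ω (Real.sqrt (∑ j, ξ j ^ 2)) * piece d K ξ ^ 2 ≤
      (4 * K : ℝ) ^ (2 * d + 2) * ((16 * (4 * K : ℝ) ^ (d + 2) * omegaGain ω d K) *
        (1248 * (4 * K : ℝ)) ^ d) := by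
  have h4 := scale_ge K hK
  set N : ℝ := (4 * K : ℝ) with hN
  have hN0 : 0 < N := by linarith
  have hN1 : 1 ≤ N := by linarith
  have hpi := Real.pi_lt_d4
  have hpi0 := Real.pi_pos
  set R : ℝ := N ^ (2 * d + 4) with hR
  have hR1 : 1 ≤ R := one_le_pow₀ hN1
  have hR0 : 0 < R := by linarith
  set G : ℝ := omegaGain ω d K with hG
  have hGeq : G = ω (R / 2) + ω 0 * Real.exp (-R / 16) := rfl
  have hG0 : 0 < G := by
    rw [hGeq]
    exact add_pos (hpos _) (mul_pos (hpos 0) (Real.exp_pos _))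
  set f : Fin (d + 1) → ℝ → ℝ :=
    Fin.cons (fun x => 4 * G * Real.exp (-(1 / (4 * R)) * (x - R) ^ 2))
      (fun (j : Fin d) η => 48 * scomb4 d K j η) with hf
  have hfint : ∀ j, Integrable (f j) := by
    intro j
    refine Fin.cases ?_ (fun j => ?_) j
    · simp only [hf, Fin.cons_zero]
      exact (integrable_bump _ _ (by positivity)).const_mul _
    · simp only [hf, Fin.cons_succ]
      exact (scomb4_integrable d K j hK).1.const_mul _
  have hm : AEStronglyMeasurable (fun ξ : Fin (d + 1) → ℝ =>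
      (1 + ∑ j, ξ j ^ 2) ^ (((d + 1 : ℕ) : ℝ) / (2 * (((d + 1 : ℕ) : ℝ) + 1))) *
        ω (Real.sqrt (∑ j, ξ j ^ 2)) * piece d K ξ ^ 2) volume := by
    have m1 : Measurable (fun ξ : Fin (d + 1) → ℝ =>
        (1 + ∑ j, ξ j ^ 2) ^ (((d + 1 : ℕ) : ℝ) / (2 * (((d + 1 : ℕ) : ℝ) + 1)))) :=
      (by fun_prop : Measurable fun ξ : Fin (d + 1) → ℝ => 1 + ∑ j, ξ j ^ 2).pow_const _
    have m2 : Measurable (fun ξ : Fin (d + 1) → ℝ => ω (Real.sqrt (∑ j, ξ j ^ 2))) :=
      hanti.measurable.comp (by fun_prop)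
    exact (m1.mul m2).aestronglyMeasurable.mul ((piece_integrable d K hK).1.pow 2)
  have hb := prod_bound_N f hfint _ hm
    (fun ξ => by
      have := (hpos (Real.sqrt (∑ j, ξ j ^ 2))).le
      have h1 : 0 ≤ ∑ j, ξ j ^ 2 := Finset.sum_nonneg fun j _ => sq_nonneg _
      positivity) (N ^ (2 * d + 2)) (fun ξ => by
      set r : ℝ := Real.sqrt (∑ j, ξ j ^ 2) with hr
      have hω := hpos r
      have hr0 : |ξ 0| ≤ r := by
        apply Real.abs_le_sqrt
        exact Finset.single_le_sum (f := fun j => ξ j ^ 2) (fun j _ => sq_nonneg _)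
          (Finset.mem_univ 0)
      have hW := weight_le_prod N hN0 d ξ
      rw [← hR] at hW
      have hp2 : 0 ≤ piece d K ξ ^ 2 := sq_nonneg _
      calc (1 + ∑ j, ξ j ^ 2) ^ (((d + 1 : ℕ) : ℝ) / (2 * (((d + 1 : ℕ) : ℝ) + 1))) * ω r *
            piece d K ξ ^ 2
          ≤ (N ^ (2 * d + 2) * ∏ j, (1 + (1 + ξ j ^ 2) / R ^ 2)) * ω r * piece d K ξ ^ 2 := by
            gcongr
        _ = N ^ (2 * d + 2) * (ω r * ∏ j, ((1 + (1 + ξ j ^ 2) / R ^ 2) * fac d K j (ξ j) ^ 2)) := by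
            unfold piece
            rw [Finset.prod_mul_distrib, Finset.prod_pow]
            ring
        _ ≤ N ^ (2 * d + 2) * ∏ j, f j (ξ j) := by
            apply mul_le_mul_of_nonneg_left _ (by positivity)
            rw [Fin.prod_univ_succ, Fin.prod_univ_succ, ← mul_assoc]
            simp only [hf, fac, Fin.cons_zero, Fin.cons_succ]
            apply mul_le_mul
            · have := packet_weight_le R (ξ 0) r hR1 hr0 ω hanti hpos
              rw [← hGeq] at this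
              exact this
            · apply Finset.prod_le_prod
              · intro j _
                positivity
              · intro j _
                exact scomb_sq_weight_le d K j hK (ξ j.succ)
            · apply Finset.prod_nonneg
              intro j _
              positivity
            · positivity)
  refine ⟨hb.1, hb.2.trans ?_⟩
  apply mul_le_mul_of_nonneg_left _ (by positivity)
  rw [Fin.prod_univ_succ]
  simp only [hf, Fin.cons_zero, Fin.cons_succ]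
  have i1 : ∫ x : ℝ, 4 * G * Real.exp (-(1 / (4 * R)) * (x - R) ^ 2) ≤ 16 * N ^ (d + 2) * G := by
    rw [integral_const_mul, integral_bump]
    have : Real.sqrt (π / (1 / (4 * R))) ≤ 4 * N ^ (d + 2) := by
      apply sqrt_bd _ _ _ (by norm_num) (by positivity)
      have : π / (1 / (4 * R)) = 4 * π * (N ^ (d + 2)) ^ 2 := by
        rw [← pow_mul]
        have : (d + 2) * 2 = 2 * d + 4 := by ring
        rw [this, ← hR]
        field_simp
      rw [this]
      have : 0 ≤ (N ^ (d + 2)) ^ 2 := by positivity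
      nlinarith
    calc 4 * G * Real.sqrt (π / (1 / (4 * R))) ≤ 4 * G * (4 * N ^ (d + 2)) := by gcongr
      _ = _ := by ring
  have i2 : ∏ j : Fin d, ∫ η, 48 * scomb4 d K j η ≤ (1248 * N) ^ d := by
    calc ∏ j : Fin d, ∫ η, 48 * scomb4 d K j η ≤ ∏ _j : Fin d, 1248 * N := by
          apply Finset.prod_le_prod
          · intro j _
            exact integral_nonneg fun η => mul_nonneg (by norm_num) (scomb4_nonneg _ _ _ _)
          · intro j _
            rw [integral_const_mul]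
            have := (scomb4_integrable d K j hK).2
            rw [← hN] at this
            linarith
      _ = (1248 * N) ^ d := by rw [Finset.prod_const, Finset.card_univ, Fintype.card_fin]
  have h0 : 0 ≤ ∏ j : Fin d, ∫ η, 48 * scomb4 d K j η :=
    Finset.prod_nonneg fun j _ =>
      integral_nonneg fun η => mul_nonneg (by norm_num) (scomb4_nonneg _ _ _ _)
  gcongr

end Vale.Agent.P076N
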