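import Mathlib
import Vale.Agent.P076N.Assemble
import Vale.Agent.P076N.PiecePeak
import Vale.Agent.P076N.PieceWeight

/-! The loss-free counterexample in every dimension. -/

namespace Vale.Agent.P076N

open MeasureTheory Filter Topology Real Complex

/-- the constant in the peak height -/
noncomputable def c₁ (d : ℕ) : ℝ := ((2 * π) ^ (d + 1))⁻¹ / (6 * 8 ^ d)

theorem c₁_pos (d : ℕ) : 0 < c₁ d := by
  unfold c₁
  have := Real.pi_pos
  positivity

theorem peakHeight_eq (d K : ℕ) : peakHeight d K = c₁ d * (4 * K : ℝ) ^ (2 * d + 2) := by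
  unfold peakHeight c₁
  have e : (4 * K : ℝ) ^ (2 * d + 2) = (4 * K : ℝ) ^ (d + 2) * (4 * K : ℝ) ^ d := by
    rw [← pow_add]; congr 1; ring
  rw [e, div_pow]
  ring

theorem peakHeight_pos (d K : ℕ) (hK : 0 < K) : 0 < peakHeight d K := by
  rw [peakHeight_eq]
  have h4 := scale_ge K hK
  have := c₁_pos d
  positivity

theorem tendsto_scale : Tendsto (fun K : ℕ => (4 * ((K + 1 : ℕ) : ℝ) : ℝ)) atTop atTop := by
  apply Tendsto.const_mul_atTop (by norm_num)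
  exact tendsto_natCast_atTop_atTop.comp (tendsto_add_atTop_nat 1)

theorem tendsto_scale_pow (m : ℕ) (hm : m ≠ 0) :
    Tendsto (fun K : ℕ => (4 * ((K + 1 : ℕ) : ℝ) : ℝ) ^ m) atTop atTop :=
  (tendsto_pow_atTop hm).comp tendsto_scale

theorem ratio_l2 (d : ℕ) :
    Tendsto (fun K : ℕ => (∫ ξ, piece d (K + 1) ξ ^ 2) / peakHeight d (K + 1) ^ 2) atTop (𝓝 0) := by
  have hc := c₁_pos d
  have hlim : Tendsto (fun K : ℕ => (2 * 39 ^ d / c₁ d ^ 2) *
      ((4 * ((K + 1 : ℕ) : ℝ) : ℝ) ^ (2 * d + 2))⁻¹) atTop (𝓝 0) := by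
    have := (tendsto_inv_atTop_zero.comp (tendsto_scale_pow (2 * d + 2) (by omega))).const_mul
      (2 * 39 ^ d / c₁ d ^ 2)
    rwa [mul_zero] at this
  refine squeeze_zero (fun K => ?_) (fun K => ?_) hlim
  · exact div_nonneg (integral_nonneg fun ξ => sq_nonneg _) (sq_nonneg _)
  · have h4 := scale_ge (K + 1) (Nat.succ_pos K)
    set N : ℝ := (4 * ((K + 1 : ℕ) : ℝ) : ℝ) with hN
    have hN0 : 0 < N := by linarith
    rw [peakHeight_eq, ← hN, div_le_iff₀ (by positivity)]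
    refine (piece_sq d (K + 1) (Nat.succ_pos K)).2.trans (le_of_eq ?_)
    rw [← hN]
    have e : N ^ (2 * d + 2) = N ^ (d + 2) * N ^ d := by
      rw [← pow_add]; congr 1; ring
    rw [e, mul_pow 39 N d]
    field_simp

theorem tendsto_omegaGain (ω : ℝ → ℝ) (hlim : Tendsto ω atTop (𝓝 0)) (d : ℕ) :
    Tendsto (fun K : ℕ => omegaGain ω d (K + 1)) atTop (𝓝 0) := by
  unfold omegaGain
  have hp := tendsto_scale_pow (2 * d + 4) (by omega)
  have h1 : Tendsto (fun K : ℕ => ω ((4 * ((K + 1 : ℕ) : ℝ) : ℝ) ^ (2 * d + 4) / 2)) atTop (𝓝 0) :=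
    hlim.comp (hp.atTop_div_const (by norm_num))
  have h2 : Tendsto (fun K : ℕ => ω 0 * Real.exp (-(4 * ((K + 1 : ℕ) : ℝ) : ℝ) ^ (2 * d + 4) / 16))
      atTop (𝓝 0) := by
    have h3 : Tendsto (fun K : ℕ => ω 0 *
        Real.exp (-((4 * ((K + 1 : ℕ) : ℝ) : ℝ) ^ (2 * d + 4) / 16))) atTop (𝓝 (ω 0 * 0)) :=
      (Real.tendsto_exp_neg_atTop_nhds_zero.comp (hp.atTop_div_const (by norm_num))).const_mul _
    rw [mul_zero] at h3
    refine h3.congr fun K => ?_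
    rw [neg_div]
  have := h1.add h2
  rwa [add_zero] at this

theorem ratio_wt (ω : ℝ → ℝ) (hanti : Antitone ω) (hpos : ∀ r, 0 < ω r)
    (hlim : Tendsto ω atTop (𝓝 0)) (d : ℕ) :
    Tendsto (fun K : ℕ => (∫ ξ : Fin (d + 1) → ℝ,
      ((1 + ∑ j, ξ j ^ 2) ^ (((d + 1 : ℕ) : ℝ) / (2 * (((d + 1 : ℕ) : ℝ) + 1))) *
        ω (Real.sqrt (∑ j, ξ j ^ 2))) * piece d (K + 1) ξ ^ 2) / peakHeight d (K + 1) ^ 2)
      atTop (𝓝 0) := by
  have hc := c₁_pos d
  have hl : Tendsto (fun K : ℕ => (16 * 1248 ^ d / c₁ d ^ 2) * omegaGain ω d (K + 1))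
      atTop (𝓝 0) := by
    have := (tendsto_omegaGain ω hlim d).const_mul (16 * 1248 ^ d / c₁ d ^ 2)
    rwa [mul_zero] at this
  refine squeeze_zero (fun K => ?_) (fun K => ?_) hl
  · apply div_nonneg _ (sq_nonneg _)
    apply integral_nonneg
    intro ξ
    have := (hpos (Real.sqrt (∑ j, ξ j ^ 2))).le
    have h1 : 0 ≤ ∑ j, ξ j ^ 2 := Finset.sum_nonneg fun j _ => sq_nonneg _
    positivity
  · have h4 := scale_ge (K + 1) (Nat.succ_pos K)
    set N : ℝ := (4 * ((K + 1 : ℕ) : ℝ) : ℝ) with hN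
    have hN0 : 0 < N := by linarith
    rw [peakHeight_eq, ← hN, div_le_iff₀ (by positivity)]
    refine (piece_weighted d (K + 1) (Nat.succ_pos K) ω hanti hpos).2.trans (le_of_eq ?_)
    rw [← hN]
    have e : N ^ (2 * d + 2) = N ^ (d + 2) * N ^ d := by
      rw [← pow_add]; congr 1; ring
    rw [e, mul_pow 1248 N d]
    field_simp

/-- the bound for the evolution of the piece after time `t₀` -/
noncomputable def tailBd (d : ℕ) (t₀ : ℝ) (K : ℕ) : ℝ :=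
  ((2 * π) ^ (d + 1))⁻¹ * (Real.sqrt (π / t₀) * Real.exp (1 / t₀ - (4 * K : ℝ) ^ (2 * d + 4) / 2) *
    (13 * (4 * K : ℝ)) ^ d)

theorem ratio_tail (d : ℕ) (t₀ : ℝ) :
    Tendsto (fun K : ℕ => tailBd d t₀ (K + 1) / peakHeight d (K + 1)) atTop (𝓝 0) := by
  have hc := c₁_pos d
  have hpi := Real.pi_pos
  set C : ℝ := ((2 * π) ^ (d + 1))⁻¹ * (Real.sqrt (π / t₀) * Real.exp (1 / t₀) * 13 ^ d) / c₁ d
    with hC
  have hC0 : 0 ≤ C := by positivity
  have hp := tendsto_scale_pow (2 * d + 4) (by omega)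
  have hl : Tendsto (fun K : ℕ => C * Real.exp (-((4 * ((K + 1 : ℕ) : ℝ) : ℝ) ^ (2 * d + 4) / 2)))
      atTop (𝓝 0) := by
    have := (Real.tendsto_exp_neg_atTop_nhds_zero.comp
      (hp.atTop_div_const (by norm_num : (0 : ℝ) < 2))).const_mul C
    rwa [mul_zero] at this
  refine squeeze_zero (fun K => ?_) (fun K => ?_) hl
  · have := peakHeight_pos d (K + 1) (Nat.succ_pos K)
    unfold tailBd
    positivity
  · have h4 := scale_ge (K + 1) (Nat.succ_pos K)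
    unfold tailBd
    set N : ℝ := (4 * ((K + 1 : ℕ) : ℝ) : ℝ) with hN
    have hN0 : 0 < N := by linarith
    have hN1 : 1 ≤ N := by linarith
    rw [peakHeight_eq, ← hN, div_le_iff₀ (by positivity), sub_eq_add_neg, Real.exp_add, hC,
      mul_pow 13 N d]
    set X : ℝ := Real.exp (-(N ^ (2 * d + 4) / 2)) with hX
    have hX0 : 0 < X := Real.exp_pos _
    have e : ((2 * π) ^ (d + 1))⁻¹ * (Real.sqrt (π / t₀) * Real.exp (1 / t₀) * 13 ^ d) / c₁ d * X *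
        (c₁ d * N ^ (2 * d + 2)) =
        ((2 * π) ^ (d + 1))⁻¹ * (Real.sqrt (π / t₀) * (Real.exp (1 / t₀) * X) *
          (13 ^ d * N ^ (2 * d + 2))) := by
      field_simp
    rw [e]
    have hle : N ^ d ≤ N ^ (2 * d + 2) := pow_le_pow_right₀ hN1 (by omega)
    gcongr

theorem weight_sharp_succ (d : ℕ) (ω : ℝ → ℝ) (hanti : Antitone ω) (hpos : ∀ r, 0 < ω r)
    (hlim : Tendsto ω atTop (𝓝 0)) :
    ∃ g : (Fin (d + 1) → ℝ) → ℂ, MemLp g 2 volume ∧
      Integrable (fun ξ : Fin (d + 1) → ℝ =>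
        (1 + ∑ j, ξ j ^ 2) ^ (((d + 1 : ℕ) : ℝ) / (2 * (((d + 1 : ℕ) : ℝ) + 1))) *
          ω (Real.sqrt (∑ j, ξ j ^ 2)) * ‖g ξ‖ ^ 2) ∧
      ∃ S : Set (Fin (d + 1) → ℝ), MeasurableSet S ∧ 0 < volume S ∧
        ∀ x ∈ S, ¬ HasSchrodLimit (d + 1) g x := by
  set W : (Fin (d + 1) → ℝ) → ℝ := fun ξ =>
    (1 + ∑ j, ξ j ^ 2) ^ (((d + 1 : ℕ) : ℝ) / (2 * (((d + 1 : ℕ) : ℝ) + 1))) *
      ω (Real.sqrt (∑ j, ξ j ^ 2)) with hW
  have hW0 : ∀ ξ, 0 ≤ W ξ := by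
    intro ξ
    rw [hW]
    have := (hpos (Real.sqrt (∑ j, ξ j ^ 2))).le
    have h1 : 0 ≤ ∑ j, ξ j ^ 2 := Finset.sum_nonneg fun j _ => sq_nonneg _
    positivity
  have hWm : AEStronglyMeasurable W volume := by
    apply Measurable.aestronglyMeasurable
    rw [hW]
    apply Measurable.mul
    · exact (by fun_prop : Measurable fun ξ : Fin (d + 1) → ℝ => 1 + ∑ j, ξ j ^ 2).pow_const _
    · exact hanti.measurable.comp (by fun_prop)
  have hpos' : ∀ K : ℕ, 0 < K + 1 := Nat.succ_pos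
  have htmax : Tendsto (fun K : ℕ => 1 / (4 * ((K + 1 : ℕ) : ℝ) : ℝ) ^ (2 * d + 4)) atTop (𝓝 0) := by
    have := tendsto_inv_atTop_zero.comp (tendsto_scale_pow (2 * d + 4) (by omega))
    refine this.congr fun K => ?_
    simp
  exact assemble W hW0 hWm (fun K => piece d (K + 1)) (fun K ξ => piece_nonneg d (K + 1) ξ)
    (fun K => piece_integrable d (K + 1) (hpos' K)) (fun K => (piece_sq d (K + 1) (hpos' K)).1)
    (fun K => (piece_weighted d (K + 1) (hpos' K) ω hanti hpos).1)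
    (fun K => ⋃ i ∈ boxIdx d (K + 1), box d (K + 1) i)
    (fun K => Finset.measurableSet_biUnion _ fun i _ => measurableSet_box d (K + 1) i)
    (fun K => boxes_subset d (K + 1) (hpos' K)) ((1 / 8) ^ (d + 1)) (by positivity)
    (fun K => (volume_boxes d (K + 1) (hpos' K)).ge)
    (fun K => peakHeight d (K + 1))
    (fun K => 1 / ((4 * ((K + 1 : ℕ) : ℝ) : ℝ) ^ (2 * d + 3)) ^ 2)
    (fun K => 1 / (4 * ((K + 1 : ℕ) : ℝ) : ℝ) ^ (2 * d + 4))
    (fun K => peakHeight_pos d (K + 1) (hpos' K))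
    (fun K => by have := scale_ge (K + 1) (hpos' K); positivity)
    htmax
    (fun K x hx => by
      obtain ⟨i, hi, hxi⟩ := Set.mem_iUnion₂.1 hx
      exact piece_peak d (K + 1) (hpos' K) i hi x hxi)
    (ratio_l2 d) (ratio_wt ω hanti hpos hlim d)
    (fun t₀ K => tailBd d t₀ (K + 1)) (fun t₀ _ => ratio_tail d t₀)
    (fun t₀ ht₀ K x hx t ht a ha => piece_tail d (K + 1) (hpos' K) a t t₀ ha.le ht₀ ht x hx)

/-- In every dimension `n ≥ 1` almost everywhere convergence fails in every space obtained from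
the endpoint Sobolev space by weakening the norm by a factor tending to zero. -/
theorem weight_sharp_all (n : ℕ) (hn : 1 ≤ n) (ω : ℝ → ℝ) (hanti : Antitone ω)
    (hpos : ∀ r, 0 < ω r) (hlim : Tendsto ω atTop (𝓝 0)) :
    ∃ g : (Fin n → ℝ) → ℂ, MemLp g 2 volume ∧
      Integrable (fun ξ : Fin n → ℝ =>
        (1 + ∑ j, ξ j ^ 2) ^ ((n : ℝ) / (2 * ((n : ℝ) + 1))) *
          ω (Real.sqrt (∑ j, ξ j ^ 2)) * ‖g ξ‖ ^ 2) ∧
      ∃ S : Set (Fin n → ℝ), MeasurableSet S ∧ 0 < volume S ∧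
        ∀ x ∈ S, ¬ HasSchrodLimit n g x := by
  obtain ⟨d, rfl⟩ : ∃ d, n = d + 1 := ⟨n - 1, by omega⟩
  exact weight_sharp_succ d ω hanti hpos hlim

end Vale.Agent.P076N
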