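import Mathlib

/-! Definitions for the Schroedinger convergence problem for a square integrable datum `f` on a
finite dimensional real inner product space `E` (Euclidean n-space) with its Lebesgue measure. -/

namespace Vale.Agent.P076N

open MeasureTheory Complex Filter Topology FourierTransform

variable {E : Type} [NormedAddCommGroup E] [InnerProductSpace ℝ E] [FiniteDimensional ℝ E]
  [MeasurableSpace E] [BorelSpace E]

/-- The Fourier transform of `f` in the convention of the problem file (kernel exp(-i x·ξ)):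
the Mathlib transform on square integrable functions has kernel exp(-2πi x·η), so the value at
`ξ` is the Mathlib transform at `ξ / (2π)`. -/
noncomputable def hatF (f : Lp (α := E) ℂ 2 volume) (ξ : E) : ℂ :=
  (𝓕 f : Lp (α := E) ℂ 2 volume) ((2 * Real.pi)⁻¹ • ξ)

/-- The factor exp(i x·ξ - i t |ξ|² - a |ξ|²). -/
noncomputable def kern (a t : ℝ) (x ξ : E) : ℂ :=
  cexp (I * ((inner ℝ x ξ : ℝ) : ℂ) - ((a : ℂ) + I * t) * ((‖ξ‖ ^ 2 : ℝ) : ℂ))

/-- Gaussian-regularised free Schroedinger evolution of `f`, as in the problem file. -/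
noncomputable def evolReg (f : Lp (α := E) ℂ 2 volume) (a t : ℝ) (x : E) : ℂ :=
  ((2 * (Real.pi : ℂ)) ^ (Module.finrank ℝ E))⁻¹ * ∫ ξ : E, kern a t x ξ * hatF f ξ

/-- The evolution of `f` is defined at `x` for all sufficiently small `t > 0` (as the limit of
the regularisations as `a ↓ 0`) and has a limit as `t ↓ 0`. -/
def EvolHasLimit (f : Lp (α := E) ℂ 2 volume) (x : E) : Prop :=
  ∃ (L : ℂ) (δ : ℝ) (u : ℝ → ℂ), 0 < δ ∧
    (∀ t, 0 < t → t < δ → Tendsto (fun a : ℝ => evolReg f a t x) (𝓝[>] 0) (𝓝 (u t))) ∧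
    Tendsto u (𝓝[>] 0) (𝓝 L)

end Vale.Agent.P076N
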