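import Mathlib
import Vale.Agent.P076N.Defs
import Vale.Agent.P076N.Basic
import Vale.Agent.P076N.Glue

/-! Absolute convergence of the regularised integral for square integrable data. -/

namespace Vale.Agent.P076N

open MeasureTheory Complex Filter Topology

variable {n : ℕ}

theorem memLp_oscN (a t : ℝ) (ha : 0 < a) (x : Fin n → ℝ) :
    MemLp (fun ξ : Fin n → ℝ => oscN a t x ξ) 2 volume := by
  rw [memLp_two_iff_integrable_sq_norm (continuous_oscN a t x).aestronglyMeasurable]
  have h := integrable_gauss2 (n := n) (2 * a) (by positivity)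
  refine h.congr (Filter.Eventually.of_forall fun ξ => ?_)
  simp only
  rw [norm_oscN, ← Real.exp_nat_mul]
  congr 1
  push_cast
  ring

theorem integrable_oscN_mul_of_memLp (g : (Fin n → ℝ) → ℂ) (hg : MemLp g 2 volume)
    (a t : ℝ) (ha : 0 < a) (x : Fin n → ℝ) :
    Integrable (fun ξ : Fin n → ℝ => oscN a t x ξ * g ξ) :=
  (memLp_oscN a t ha x).integrable_mul hg

end Vale.Agent.P076N
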