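import Mathlib
import Vale.Agent.P076N.Defs
import Vale.Agent.P076N.Basic
import Vale.Agent.P076N.Glue
import Vale.Agent.P076N.Unfold
import Vale.Agent.P076N.Main
import Vale.Agent.P076N.PhysDefs

/-! Transfer of the counterexample to the physical side: the datum is an element of the
Hilbert space of square integrable functions on Euclidean space, its Fourier transform is the
one of Mathlib (rescaled to the convention of the problem). -/

namespace Vale.Agent.P076N

open MeasureTheory Complex Filter Topology FourierTransform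

variable {E : Type} [NormedAddCommGroup E] [InnerProductSpace ℝ E] [FiniteDimensional ℝ E]
  [MeasurableSpace E] [BorelSpace E]

theorem qmp_smul (c : ℝ) (hc : c ≠ 0) :
    Measure.QuasiMeasurePreserving (fun ξ : E => c • ξ) volume volume := by
  refine ⟨measurable_const_smul c, ?_⟩
  rw [Measure.map_addHaar_smul volume hc]
  exact Measure.smul_absolutelyContinuous

theorem memLp_comp_smul (h : E → ℂ) (hh : MemLp h 2 volume) (c : ℝ)
    (hc : c ≠ 0) : MemLp (fun η : E => h (c • η)) 2 volume := by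
  have h1 : MemLp h 2 (Measure.map (fun ξ : E => c • ξ) volume) := by
    rw [Measure.map_addHaar_smul volume hc]
    exact hh.smul_measure ENNReal.ofReal_ne_top
  exact h1.comp_of_map (measurable_const_smul c).aemeasurable

theorem osc_transfer0 {n : ℕ} (a t : ℝ) (x ξ : EuclideanSpace ℝ (Fin n)) :
    cexp (I * ((inner ℝ x ξ : ℝ) : ℂ) - ((a : ℂ) + I * t) * ((‖ξ‖ ^ 2 : ℝ) : ℂ)) =
      oscN a t (WithLp.ofLp x) (WithLp.ofLp ξ) := by
  unfold oscN
  congr 2
  · congr 1
    rw [PiLp.inner_apply]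
    push_cast
    apply Finset.sum_congr rfl
    intro j _
    simp [mul_comm]
  · congr 1
    rw [EuclideanSpace.real_norm_sq_eq]
    push_cast
    rfl

theorem osc_transfer {n : ℕ} (b : OrthonormalBasis (Fin n) ℝ E) (a t : ℝ) (x ξ : E) :
    kern a t x ξ = oscN a t (WithLp.ofLp (b.repr x)) (WithLp.ofLp (b.repr ξ)) := by
  rw [← osc_transfer0, b.repr.inner_map_map, b.repr.norm_map]
  rfl

theorem phys (hn : 1 ≤ Module.finrank ℝ E)
    (ω : ℝ → ℝ) (hanti : Antitone ω) (hpos : ∀ r, 0 < ω r) (hlim : Tendsto ω atTop (𝓝 0)) :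
    ∃ f : Lp (α := E) ℂ 2 volume,
      Integrable (fun ξ : E =>
        (1 + ‖ξ‖ ^ 2) ^ ((Module.finrank ℝ E : ℝ) / (2 * ((Module.finrank ℝ E : ℝ) + 1))) *
          ω ‖ξ‖ * ‖hatF f ξ‖ ^ 2) ∧
      (∀ (a t : ℝ) (x : E), 0 < a → Integrable (fun ξ : E => kern a t x ξ * hatF f ξ)) ∧
      ∃ S : Set E, MeasurableSet S ∧ 0 < volume S ∧ ∀ x ∈ S, ¬ EvolHasLimit f x := by
  obtain ⟨g, hg2, hgw, S, hSm, hSpos, hS⟩ :=
    weight_sharp_all (Module.finrank ℝ E) hn ω hanti hpos hlim
  set b := stdOrthonormalBasis ℝ E with hb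
  set φ : E → (Fin (Module.finrank ℝ E) → ℝ) := fun ξ => WithLp.ofLp (b.repr ξ) with hφ
  have hmp : MeasurePreserving φ volume volume :=
    (PiLp.volume_preserving_ofLp (Fin (Module.finrank ℝ E))).comp b.measurePreserving_repr
  have hemb : MeasurableEmbedding φ :=
    (MeasurableEquiv.toLp 2 (Fin (Module.finrank ℝ E) → ℝ)).symm.measurableEmbedding.comp
      b.repr.toHomeomorph.measurableEmbedding
  set g₁ : E → ℂ := fun ξ => g (φ ξ) with hg₁def
  have hg₁ : MemLp g₁ 2 volume := hg2.comp_measurePreserving hmp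
  have hpi : (2 * Real.pi) ≠ 0 := by positivity
  set G : E → ℂ := fun η => g₁ ((2 * Real.pi) • η) with hGdef
  have hG : MemLp G 2 volume := memLp_comp_smul g₁ hg₁ (2 * Real.pi) hpi
  set f : Lp (α := E) ℂ 2 volume := 𝓕⁻ (hG.toLp G) with hfdef
  have hf : 𝓕 f = hG.toLp G := fourier_fourierInv_eq _
  have hae : (fun ξ : E => hatF f ξ) =ᵐ[volume] g₁ := by
    have h1 : ((𝓕 f : Lp (α := E) ℂ 2 volume) : E → ℂ) =ᵐ[volume] G := by
      rw [hf]; exact hG.coeFn_toLp
    have h2 := (qmp_smul (E := E) (2 * Real.pi)⁻¹ (inv_ne_zero hpi)).ae_eq_comp h1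
    refine h2.trans (Filter.Eventually.of_forall fun ξ => ?_)
    simp only [Function.comp, hGdef, smul_smul]
    rw [mul_inv_cancel₀ hpi, one_smul]
  have hnorm : ∀ ξ : E, ‖ξ‖ ^ 2 = ∑ j, φ ξ j ^ 2 := by
    intro ξ
    rw [← b.repr.norm_map ξ, EuclideanSpace.real_norm_sq_eq]
  refine ⟨f, ?_, ?_, φ ⁻¹' S, hmp.measurable hSm, ?_, ?_⟩
  · have h0 := (hmp.integrable_comp_of_integrable hgw)
    refine h0.congr ?_
    filter_upwards [hae] with ξ hξ
    simp only [Function.comp]
    rw [hξ, hnorm, ← Real.sqrt_sq (norm_nonneg ξ), hnorm]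
  · intro a t x ha
    have h0 := hmp.integrable_comp_of_integrable
      (integrable_oscN_mul_of_memLp g hg2 a t ha (φ x))
    refine h0.congr ?_
    filter_upwards [hae] with ξ hξ
    simp only [Function.comp]
    rw [hξ, osc_transfer b]
  · rw [hmp.measure_preimage hSm.nullMeasurableSet]
    exact hSpos
  · intro x hx hex
    apply hS (φ x) hx
    obtain ⟨L, δ, u, hδ, hu, hL⟩ := hex
    refine ⟨L, δ, u, hδ, ?_, hL⟩
    intro t ht0 htδ
    have h3 := hu t ht0 htδ
    unfold IsSchrodValue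
    refine h3.congr ?_
    intro a
    rw [schrodReg_eq]
    unfold evolReg
    congr 1
    rw [← hmp.integral_comp hemb]
    apply integral_congr_ae
    filter_upwards [hae] with ξ hξ
    rw [hξ, osc_transfer b]

end Vale.Agent.P076N
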